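import Mathlib

namespace Vale.Agent.P183

open Relation

universe u

/-- A bipole: a finite graph with two terminals `inl false`, `inl true`, edges labelled in `L`. -/
structure Bip (L : Type u) where
  Inner : Type
  fin : Finite Inner
  E : L → Bool ⊕ Inner → Bool ⊕ Inner → Prop

variable {L : Type u}

namespace Bip

abbrev Vert (B : Bip L) : Type := Bool ⊕ B.Inner

/-- Morphisms into a space with levels. -/
def IsMor (B : Bip L) {Y : Type} (lv : L → Setoid Y) (f : B.Vert → Y) : Prop :=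
  ∀ ℓ u v, B.E ℓ u v → lv ℓ (f u) (f v)

/-- The pairs of a space that are images of the terminals. -/
def Sem (B : Bip L) {Y : Type} (lv : L → Setoid Y) (u v : Y) : Prop :=
  ∃ f : B.Vert → Y, B.IsMor lv f ∧ f (Sum.inl false) = u ∧ f (Sum.inl true) = v

theorem Sem.refl (B : Bip L) {Y : Type} (lv : L → Setoid Y) (x : Y) : B.Sem lv x x :=
  ⟨fun _ => x, fun ℓ _ _ _ => (lv ℓ).refl' x, rfl, rfl⟩

/-- `B` is symmetric if its pairs are symmetric in every space. -/
def SymP (B : Bip L) : Prop :=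
  ∀ (Y : Type) (lv : L → Setoid Y) (u v : Y), B.Sem lv u v → B.Sem lv v u

/-- `K'` carries the reverses of the pairs of `K`. -/
def Tw (K K' : Bip L) : Prop :=
  ∀ (Y : Type) (lv : L → Setoid Y) (u v : Y), K.Sem lv u v → K'.Sem lv v u

theorem Tw.of_eq {K K' : Bip L} (h : K' = K) (hs : K.SymP) : K.Tw K' := by
  subst h
  exact hs

/-- Connectivity by edges with label at most `t`. -/
def conn [LE L] (B : Bip L) (t : L) : Setoid B.Vert :=
  EqvGen.setoid (fun u v => ∃ ℓ, ℓ ≤ t ∧ B.E ℓ u v)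

theorem conn_edge [Preorder L] (B : Bip L) {ℓ t : L} {u v : B.Vert} (h : ℓ ≤ t) (e : B.E ℓ u v) :
    B.conn t u v :=
  EqvGen.rel _ _ ⟨ℓ, h, e⟩

theorem conn_mono [Preorder L] (B : Bip L) {s t : L} (h : s ≤ t) {u v : B.Vert}
    (huv : B.conn s u v) : B.conn t u v := by
  change EqvGen _ u v at huv
  change EqvGen _ u v
  refine EqvGen.mono ?_ _ _ huv
  rintro a b ⟨ℓ, hℓ, e⟩
  exact ⟨ℓ, hℓ.trans h, e⟩

theorem isMor_id [Preorder L] (B : Bip L) : B.IsMor B.conn id :=
  fun _ _ _ e => B.conn_edge le_rfl e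

/-- An endomorphism closed equivalence. -/
def Closed [LE L] (B : Bip L) (θ : Setoid B.Vert) : Prop :=
  ∀ f : B.Vert → B.Vert, B.IsMor B.conn f → ∀ x y, θ x y → θ (f x) (f y)

/-- Equivalence generated by the edges lying in `θ`. -/
def EC (B : Bip L) (θ : Setoid B.Vert) : B.Vert → B.Vert → Prop :=
  EqvGen (fun u v => (∃ ℓ, B.E ℓ u v) ∧ θ u v)

theorem EC.le (B : Bip L) (θ : Setoid B.Vert) {x y : B.Vert} (h : B.EC θ x y) : θ x y := by
  induction h with
  | rel _ _ h => exact h.2
  | refl x => exact θ.refl' x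
  | symm _ _ _ ih => exact θ.symm' ih
  | trans _ _ _ _ _ ih1 ih2 => exact θ.trans' ih1 ih2

/-- Every closed equivalence is generated by its edges. -/
def PLProp [LE L] (B : Bip L) : Prop :=
  ∀ θ : Setoid B.Vert, B.Closed θ → ∀ x y, θ x y → B.EC θ x y

end Bip

section node

variable {ne : ℕ} {len : Fin ne → ℕ} (kid : (i : Fin ne) → Fin (len i + 1) → Bip L)

/-- Inner vertices of a node: for every ear `i`, its `len i` inner junctions and the inner vertices
of its `len i + 1` kids. -/
def NInner : Type := Σ i : Fin ne, Fin (len i) ⊕ Σ j : Fin (len i + 1), (kid i j).Inner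

abbrev NV : Type := Bool ⊕ NInner kid

/-- The junction number `k` on the ear `i`. -/
def jun (i : Fin ne) (k : ℕ) : NV kid :=
  if h0 : k = 0 then Sum.inl false else
  if h : k ≤ len i then Sum.inr ⟨i, Sum.inl ⟨k - 1, by omega⟩⟩ else Sum.inl true

theorem jun_zero (i : Fin ne) : jun kid i 0 = Sum.inl false := by simp [jun]

theorem jun_last (i : Fin ne) : jun kid i (len i + 1) = Sum.inl true := by simp [jun]

theorem jun_inner (i : Fin ne) (k : Fin (len i)) :
    jun kid i (k + 1) = Sum.inr ⟨i, Sum.inl k⟩ := by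
  have := k.2
  have h : (k : ℕ) + 1 ≤ len i := by omega
  simp [jun, h]

/-- The embedding of a kid. -/
def emb (i : Fin ne) (j : Fin (len i + 1)) : (kid i j).Vert → NV kid
  | Sum.inl false => jun kid i j
  | Sum.inl true => jun kid i (j + 1)
  | Sum.inr z => Sum.inr ⟨i, Sum.inr ⟨j, z⟩⟩

inductive NE (a : L) : L → NV kid → NV kid → Prop
  | root : NE a a (Sum.inl false) (Sum.inl true)
  | sub (i : Fin ne) (j : Fin (len i + 1)) {ℓ : L} {u v : (kid i j).Vert} :
      (kid i j).E ℓ u v → NE a ℓ (emb kid i j u) (emb kid i j v)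

theorem finite_NInner : Finite (NInner kid) := by
  have := fun i j => (kid i j).fin
  unfold NInner
  infer_instance

/-- The parallel composition of the edge `a` with the series compositions of the kids. -/
def node (a : L) : Bip L := ⟨NInner kid, finite_NInner kid, NE kid a⟩

variable {kid}

theorem emb_src (i : Fin ne) (j : Fin (len i + 1)) : emb kid i j (Sum.inl false) = jun kid i j := rfl
theorem emb_tgt (i : Fin ne) (j : Fin (len i + 1)) : emb kid i j (Sum.inl true) = jun kid i (j + 1) := rfl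

section glue

variable {Y : Type} {a : L} (lv : L → Setoid Y)

/-- Gluing maps on the kids. -/
def glue (u v : Y) (y : Fin ne → ℕ → Y) (g : ∀ i j, (kid i j).Vert → Y) : NV kid → Y
  | Sum.inl false => u
  | Sum.inl true => v
  | Sum.inr ⟨i, Sum.inl k⟩ => y i (k + 1)
  | Sum.inr ⟨i, Sum.inr ⟨j, z⟩⟩ => g i j (Sum.inr z)

variable {lv} {u v : Y} {y : Fin ne → ℕ → Y} {g : ∀ i j, (kid i j).Vert → Y}

theorem glue_jun (h0 : ∀ i, y i 0 = u) (h1 : ∀ i, y i (len i + 1) = v) (i : Fin ne) (k : ℕ)
    (hk : k ≤ len i + 1) : glue u v y g (jun kid i k) = y i k := by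
  by_cases h : k = 0
  · subst h; rw [jun_zero]; exact (h0 i).symm
  by_cases h' : k = len i + 1
  · subst h'; rw [jun_last]; exact (h1 i).symm
  · obtain ⟨k', rfl⟩ : ∃ k', k = k' + 1 := ⟨k - 1, by omega⟩
    have hk' : k' < len i := by omega
    have := jun_inner kid i ⟨k', hk'⟩
    simp only at this
    rw [this]
    rfl

theorem glue_emb (h0 : ∀ i, y i 0 = u) (h1 : ∀ i, y i (len i + 1) = v)
    (hs : ∀ i j, g i j (Sum.inl false) = y i j) (ht : ∀ i j, g i j (Sum.inl true) = y i (j + 1))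
    (i : Fin ne) (j : Fin (len i + 1)) (x : (kid i j).Vert) :
    glue u v y g (emb kid i j x) = g i j x := by
  rcases x with (_ | _) | z
  · rw [emb_src, glue_jun h0 h1 i j (by have := j.2; omega), hs]
  · rw [emb_tgt, glue_jun h0 h1 i _ (by have := j.2; omega), ht]
  · rfl

theorem glue_isMor (huv : lv a u v) (h0 : ∀ i, y i 0 = u) (h1 : ∀ i, y i (len i + 1) = v)
    (hs : ∀ i j, g i j (Sum.inl false) = y i j) (ht : ∀ i j, g i j (Sum.inl true) = y i (j + 1))
    (hg : ∀ i j, (kid i j).IsMor lv (g i j)) :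
    (node kid a).IsMor lv (glue u v y g) := by
  intro ℓ p q e
  cases e with
  | root => exact huv
  | sub i j e =>
    rw [glue_emb h0 h1 hs ht, glue_emb h0 h1 hs ht]
    exact hg i j _ _ _ e

end glue

/-- Edges of a kid are edges of the node. -/
theorem emb_edge {a : L} (i : Fin ne) (j : Fin (len i + 1)) {ℓ : L} {u v : (kid i j).Vert}
    (e : (kid i j).E ℓ u v) : (node kid a).E ℓ (emb kid i j u) (emb kid i j v) :=
  NE.sub i j e

theorem isMor_comp_emb {a : L} {Y : Type} {lv : L → Setoid Y} {f : (node kid a).Vert → Y}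
    (hf : (node kid a).IsMor lv f) (i : Fin ne) (j : Fin (len i + 1)) :
    (kid i j).IsMor lv (fun x => f (emb kid i j x)) :=
  fun _ _ _ e => hf _ _ _ (emb_edge i j e)

/-- Semantics of a node in terms of the kids. -/
theorem sem_node {a : L} {Y : Type} {lv : L → Setoid Y} {u v : Y} :
    (node kid a).Sem lv u v ↔ lv a u v ∧ ∀ i, ∃ y : ℕ → Y, y 0 = u ∧ y (len i + 1) = v ∧
      ∀ j : Fin (len i + 1), (kid i j).Sem lv (y j) (y (j + 1)) := by
  constructor
  · rintro ⟨f, hf, rfl, rfl⟩
    refine ⟨hf _ _ _ NE.root, fun i => ⟨fun k => f (jun kid i k), ?_, ?_, fun j => ?_⟩⟩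
    · simp only [jun_zero]; rfl
    · simp only [jun_last]; rfl
    · exact ⟨fun x => f (emb kid i j x), isMor_comp_emb hf i j, rfl, rfl⟩
  · rintro ⟨huv, h⟩
    choose y h0 h1 hk using h
    choose g hg hs ht using hk
    refine ⟨glue u v y g, glue_isMor huv h0 h1 hs ht hg, rfl, rfl⟩

end node

end Vale.Agent.P183
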