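import Mathlib

namespace Vale.Agent.P183

universe u

/-- A setoid `θ` on `A` is a congruence of the algebra with carrier `A` and the finite list of
operations `op i` of arity `ar i` if it is compatible with every operation. -/
def IsCongruence {A : Type} {n : ℕ} (ar : Fin n → ℕ) (op : ∀ i, (Fin (ar i) → A) → A)
    (θ : Setoid A) : Prop :=
  ∀ (i : Fin n) (x y : Fin (ar i) → A), (∀ j, θ (x j) (y j)) → θ (op i x) (op i y)

/-- A lattice `L` (or any partially ordered type) is representable if it is order isomorphic to
the full congruence lattice of a finite algebra: a nonempty finite carrier with a finite list of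
total finitary operations.  Congruences are ordered by inclusion, the order of `Setoid A`. -/
def Representable (L : Type u) [PartialOrder L] : Prop :=
  ∃ (A : Type) (_ : Finite A) (_ : Nonempty A) (n : ℕ) (ar : Fin n → ℕ)
    (op : ∀ i, (Fin (ar i) → A) → A),
    Nonempty (L ≃o {θ : Setoid A // IsCongruence ar op θ})

/-- A finite lattice is lower bounded in the sense of McKenzie if its join-dependency relation has
no cycles.  Equivalently there is a rank function `ρ` on the lattice such that every nontrivial
finite join cover `B` of a join-irreducible `a` (that is, `a ≤ ⋁ B` and `a` is below no member of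
`B`) refines to a join cover `C` of `a` consisting of join-irreducibles of smaller rank, where
refines means that every member of `C` is below a member of `B`. -/
def IsLowerBounded (L : Type u) [Lattice L] : Prop :=
  ∃ ρ : L → ℕ, ∀ a : L, SupIrred a → ∀ (B : Finset L) (hB : B.Nonempty),
    a ≤ B.sup' hB id → (∀ b ∈ B, ¬ a ≤ b) →
    ∃ (C : Finset L) (hC : C.Nonempty),
      (∀ c ∈ C, SupIrred c ∧ ρ c < ρ a ∧ ∃ b ∈ B, c ≤ b) ∧ a ≤ C.sup' hC id

end Vale.Agent.P183
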