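import Vale.Agent.P183.Top
import Vale.Agent.P183.Defs

namespace Vale.Agent.P183

open Relation

universe u

/-- From a closed-equivalence description of the congruences to a representation. -/
theorem representable_of_bip {L : Type u} [Lattice L] (T : Bip L)
    (h1 : ∀ s t : L, T.conn s ≤ T.conn t ↔ s ≤ t)
    (h2 : ∀ θ : Setoid T.Vert, T.Closed θ → ∃ τ : L, θ = T.conn τ)
    (h3 : ∀ t : L, T.Closed (T.conn t)) : Representable L := by
  classical
  have hfin : Finite T.Vert := by
    have := T.fin
    unfold Bip.Vert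
    infer_instance
  let M := {f : T.Vert → T.Vert // T.IsMor T.conn f}
  have hM : Finite M := by infer_instance
  let e : M ≃ Fin (Nat.card M) := Finite.equivFin M
  let ar : Fin (Nat.card M) → ℕ := fun _ => 1
  let op : ∀ i, (Fin (ar i) → T.Vert) → T.Vert := fun i x => (e.symm i).1 (x ⟨0, Nat.one_pos⟩)
  have hiff : ∀ θ : Setoid T.Vert, IsCongruence ar op θ ↔ T.Closed θ := by
    intro θ
    constructor
    · intro h f hf x y hxy
      have := h (e ⟨f, hf⟩) (fun _ => x) (fun _ => y) (fun _ => hxy)
      simpa [op] using this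
    · intro h i x y hxy
      exact h _ (e.symm i).2 _ _ (hxy _)
  refine ⟨T.Vert, hfin, ⟨Sum.inl false⟩, Nat.card M, ar, op, ⟨?_⟩⟩
  let f : L → {θ : Setoid T.Vert // IsCongruence ar op θ} :=
    fun t => ⟨T.conn t, (hiff _).2 (h3 t)⟩
  have hf : ∀ s t, f s ≤ f t ↔ s ≤ t := fun s t => h1 s t
  have hs : Function.Surjective f := by
    rintro ⟨θ, hθ⟩
    obtain ⟨τ, rfl⟩ := h2 θ ((hiff θ).1 hθ)
    exact ⟨τ, rfl⟩
  exact RelIso.ofSurjective (OrderEmbedding.ofMapLEIff f hf) hs

/-- A one element lattice is representable. -/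
theorem representable_of_subsingleton {L : Type u} [Lattice L] [Subsingleton L] [Nonempty L] :
    Representable L := by
  classical
  refine ⟨Unit, inferInstance, inferInstance, 0, fun i => i.elim0, fun i => i.elim0, ⟨?_⟩⟩
  let x0 : L := Classical.arbitrary L
  let θ0 : {θ : Setoid Unit // IsCongruence (fun i : Fin 0 => i.elim0)
    (fun i => i.elim0) θ} := ⟨⊥, fun i => i.elim0⟩
  have hsub : ∀ θ : {θ : Setoid Unit // IsCongruence (fun i : Fin 0 => i.elim0)
      (fun i => i.elim0) θ}, θ = θ0 := by
    rintro ⟨θ, hθ⟩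
    apply Subtype.ext
    apply Setoid.ext
    rintro ⟨⟩ ⟨⟩
    exact ⟨fun _ => θ0.1.refl' _, fun _ => θ.refl' _⟩
  refine RelIso.ofSurjective (OrderEmbedding.ofMapLEIff (fun _ => θ0) ?_) ?_
  · intro s t
    simp only [le_refl, true_iff]
    exact (Subsingleton.elim s t).le
  · intro θ
    exact ⟨x0, (hsub θ).symm⟩

/-- Every finite lower bounded lattice is representable. -/
theorem representable_of_isLowerBounded (L : Type u) [Lattice L] [Finite L] [Nonempty L]
    (h : IsLowerBounded L) : Representable L := by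
  classical
  rcases subsingleton_or_nontrivial L with hs | hn
  · exact representable_of_subsingleton
  have := Fintype.ofFinite L
  let _ : BoundedOrder L := Fintype.toBoundedOrder L
  obtain ⟨ρ, hρ⟩ := h
  exact representable_of_bip (Top ρ) (fun s t => conn_le_iff)
    (fun θ hθ => closed_eq_conn hρ hθ) (conn_closed _)

end Vale.Agent.P183
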