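import Vale.Agent.P183.Bip

namespace Vale.Agent.P183

open Relation

universe u

variable {L : Type u}
variable {ne : ℕ} {len : Fin ne → ℕ} {kid : (i : Fin ne) → Fin (len i + 1) → Bip L}

/-- The two flip morphism. -/
theorem cut {a : L} {Y : Type} {lv : L → Setoid Y} (i : Fin ne) (p q : Fin (len i + 1))
    (hpq : (p : ℕ) < q) {α β : Y} {gp : (kid i p).Vert → Y} {gq : (kid i q).Vert → Y}
    (hgp : (kid i p).IsMor lv gp) (hgq : (kid i q).IsMor lv gq)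
    (hp0 : gp (Sum.inl false) = α) (hp1 : gp (Sum.inl true) = β)
    (hq0 : gq (Sum.inl false) = β) (hq1 : gq (Sum.inl true) = α) :
    ∃ F : NV kid → Y, (node kid a).IsMor lv F ∧ F (Sum.inl false) = α ∧ F (Sum.inl true) = α ∧
      (∀ x, F (emb kid i p x) = gp x) ∧ (∀ x, F (emb kid i q x) = gq x) ∧
      (∀ m, m ≤ len i + 1 → F (jun kid i m) = if (p : ℕ) < m ∧ m ≤ q then β else α) ∧
      (∀ i', i' ≠ i → ∀ m, m ≤ len i' + 1 → F (jun kid i' m) = α) ∧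
      (∀ i' j x, i' ≠ i → F (emb kid i' j x) = α) ∧
      (∀ j x, j ≠ p → j ≠ q → F (emb kid i j x) = if (p : ℕ) < j ∧ (j : ℕ) ≤ q then β else α) := by
  classical
  let y : Fin ne → ℕ → Y := fun i' k => if i' = i ∧ (p : ℕ) < k ∧ k ≤ q then β else α
  let G0 : ∀ x : (Σ i, Fin (len i + 1)), (kid x.1 x.2).Vert → Y := fun x _ => y x.1 x.2
  let G : ∀ x : (Σ i, Fin (len i + 1)), (kid x.1 x.2).Vert → Y :=
    Function.update (Function.update G0 ⟨i, p⟩ gp) ⟨i, q⟩ gq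
  have hne : (⟨i, p⟩ : Σ i, Fin (len i + 1)) ≠ ⟨i, q⟩ := by
    intro h
    have h2 : p = q := by simpa using h
    rw [h2] at hpq
    exact lt_irrefl _ hpq
  have hGq : G ⟨i, q⟩ = gq := Function.update_self _ _ _
  have hGp : G ⟨i, p⟩ = gp := by
    change Function.update (Function.update G0 ⟨i, p⟩ gp) ⟨i, q⟩ gq ⟨i, p⟩ = gp
    rw [Function.update_of_ne hne, Function.update_self]
  have hG0 : ∀ i' j, (⟨i', j⟩ : Σ i, Fin (len i + 1)) ≠ ⟨i, p⟩ →
      (⟨i', j⟩ : Σ i, Fin (len i + 1)) ≠ ⟨i, q⟩ → G ⟨i', j⟩ = G0 ⟨i', j⟩ := by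
    intro i' j h1 h2
    change Function.update (Function.update G0 ⟨i, p⟩ gp) ⟨i, q⟩ gq ⟨i', j⟩ = G0 ⟨i', j⟩
    rw [Function.update_of_ne h2, Function.update_of_ne h1]
  have hq := q.2
  have hyi : ∀ k, y i k = if (p : ℕ) < k ∧ k ≤ q then β else α := by
    intro k
    simp [y]
  have hyo : ∀ i', i' ≠ i → ∀ k, y i' k = α := by
    intro i' h k
    simp [y, h]
  have h0 : ∀ i', y i' 0 = α := by
    intro i'
    simp [y]
  have h1 : ∀ i', y i' (len i' + 1) = α := by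
    intro i'
    by_cases h : i' = i
    · subst h
      rw [hyi, if_neg]
      omega
    · exact hyo i' h _
  have hcases : ∀ i' (j : Fin (len i' + 1)),
      (i' = i ∧ HEq j p) ∨ (i' = i ∧ HEq j q) ∨
      ((⟨i', j⟩ : Σ i, Fin (len i + 1)) ≠ ⟨i, p⟩ ∧ (⟨i', j⟩ : Σ i, Fin (len i + 1)) ≠ ⟨i, q⟩) := by
    intro i' j
    by_cases h1 : (⟨i', j⟩ : Σ i, Fin (len i + 1)) = ⟨i, p⟩
    · left
      exact ⟨congrArg Sigma.fst h1, (Sigma.mk.inj_iff.mp h1).2⟩
    by_cases h2 : (⟨i', j⟩ : Σ i, Fin (len i + 1)) = ⟨i, q⟩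
    · right; left
      exact ⟨congrArg Sigma.fst h2, (Sigma.mk.inj_iff.mp h2).2⟩
    · right; right
      exact ⟨h1, h2⟩
  have hstep : ∀ (j : Fin (len i + 1)), j ≠ p → j ≠ q → y i j = y i (j + 1) := by
    intro j h1 h2
    have h3 : (j : ℕ) ≠ p := fun h => h1 (Fin.ext h)
    have h4 : (j : ℕ) ≠ q := fun h => h2 (Fin.ext h)
    rw [hyi, hyi]
    by_cases h5 : (p : ℕ) < j ∧ (j : ℕ) ≤ q
    · rw [if_pos h5, if_pos (by omega)]
    · rw [if_neg h5, if_neg (by omega)]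
  have hs : ∀ i' j, G ⟨i', j⟩ (Sum.inl false) = y i' j := by
    intro i' j
    rcases hcases i' j with ⟨rfl, h⟩ | ⟨rfl, h⟩ | ⟨h1, h2⟩
    · obtain rfl := eq_of_heq h
      rw [hGp, hyi, hp0, if_neg]
      omega
    · obtain rfl := eq_of_heq h
      rw [hGq, hyi, hq0, if_pos]
      omega
    · rw [hG0 i' j h1 h2]
  have ht : ∀ i' j, G ⟨i', j⟩ (Sum.inl true) = y i' (j + 1) := by
    intro i' j
    rcases hcases i' j with ⟨rfl, h⟩ | ⟨rfl, h⟩ | ⟨h1, h2⟩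
    · obtain rfl := eq_of_heq h
      rw [hGp, hyi, hp1, if_pos]
      omega
    · obtain rfl := eq_of_heq h
      rw [hGq, hyi, hq1, if_neg]
      omega
    · rw [hG0 i' j h1 h2]
      change y i' j = y i' (j + 1)
      by_cases h : i' = i
      · subst h
        apply hstep
        · rintro rfl; exact h1 rfl
        · rintro rfl; exact h2 rfl
      · rw [hyo i' h, hyo i' h]
  have hG : ∀ i' j, (kid i' j).IsMor lv (G ⟨i', j⟩) := by
    intro i' j
    rcases hcases i' j with ⟨rfl, h⟩ | ⟨rfl, h⟩ | ⟨h1, h2⟩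
    · obtain rfl := eq_of_heq h
      rw [hGp]; exact hgp
    · obtain rfl := eq_of_heq h
      rw [hGq]; exact hgq
    · rw [hG0 i' j h1 h2]
      exact fun ℓ _ _ _ => (lv ℓ).refl' _
  refine ⟨glue α α y (fun i' j => G ⟨i', j⟩), ?_, rfl, rfl, ?_, ?_, ?_, ?_, ?_, ?_⟩
  · exact glue_isMor ((lv a).refl' α) h0 h1 hs ht hG
  · intro x
    rw [glue_emb h0 h1 hs ht, hGp]
  · intro x
    rw [glue_emb h0 h1 hs ht, hGq]
  · intro m hm
    rw [glue_jun h0 h1 i m hm, hyi]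
  · intro i' hi m hm
    rw [glue_jun h0 h1 i' m hm, hyo i' hi]
  · intro i' j x hi
    rw [glue_emb h0 h1 hs ht]
    have h1' : (⟨i', j⟩ : Σ i, Fin (len i + 1)) ≠ ⟨i, p⟩ := fun h => hi (congrArg Sigma.fst h)
    have h2' : (⟨i', j⟩ : Σ i, Fin (len i + 1)) ≠ ⟨i, q⟩ := fun h => hi (congrArg Sigma.fst h)
    rw [hG0 i' j h1' h2']
    exact hyo i' hi _
  · intro j x h1' h2'
    rw [glue_emb h0 h1 hs ht]
    have h3 : (⟨i, j⟩ : Σ i, Fin (len i + 1)) ≠ ⟨i, p⟩ := by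
      intro h
      exact h1' (by simpa using h)
    have h4 : (⟨i, j⟩ : Σ i, Fin (len i + 1)) ≠ ⟨i, q⟩ := by
      intro h
      exact h2' (by simpa using h)
    rw [hG0 i j h3 h4]
    exact hyi _

/-- The symmetric form of the two flip morphism. -/
theorem fold {a : L} (i : Fin ne) (p q : Fin (len i + 1)) (hne : p ≠ q)
    (htw : (kid i p).Tw (kid i q)) {Y : Type} {lv : L → Setoid Y}
    {g : (kid i p).Vert → Y} (hg : (kid i p).IsMor lv g) :
    ∃ (F : NV kid → Y) (c b : Y), (node kid a).IsMor lv F ∧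
      ((c = g (Sum.inl false) ∧ b = g (Sum.inl true)) ∨
        (c = g (Sum.inl true) ∧ b = g (Sum.inl false))) ∧
      F (Sum.inl false) = c ∧ F (Sum.inl true) = c ∧
      (∀ x, F (emb kid i p x) = g x) ∧
      (∀ m, m ≤ len i + 1 → F (jun kid i m) = if ((p : ℕ) < m ↔ (q : ℕ) < m) then c else b) ∧
      (∀ i', i' ≠ i → ∀ m, m ≤ len i' + 1 → F (jun kid i' m) = c) ∧
      (∀ i' j x, i' ≠ i → F (emb kid i' j x) = c) ∧
      (∀ j x, j ≠ p → j ≠ q → F (emb kid i j x) = c ∨ F (emb kid i j x) = b) := by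
  have hq : (kid i q).Sem lv (g (Sum.inl true)) (g (Sum.inl false)) :=
    htw Y lv _ _ ⟨g, hg, rfl, rfl⟩
  obtain ⟨g', hg', h0, h1⟩ := hq
  have hlt : (p : ℕ) < q ∨ (q : ℕ) < p := by
    have : (p : ℕ) ≠ q := fun h => hne (Fin.ext h)
    omega
  rcases hlt with hlt | hlt
  · obtain ⟨F, hF, h2, h3, h4, h5, h6, h7, h8, h9⟩ := cut (a := a) i p q hlt hg hg' rfl rfl h0 h1
    refine ⟨F, _, _, hF, Or.inl ⟨rfl, rfl⟩, h2, h3, h4, ?_, h7, h8, ?_⟩
    · intro m hm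
      rw [h6 m hm]
      by_cases h : (p : ℕ) < m ∧ m ≤ q
      · rw [if_pos h, if_neg (by omega)]
      · rw [if_neg h, if_pos (by omega)]
    · intro j x h10 h11
      rw [h9 j x h10 h11]
      split_ifs
      · right; rfl
      · left; rfl
  · obtain ⟨F, hF, h2, h3, h5, h4, h6, h7, h8, h9⟩ := cut (a := a) i q p hlt hg' hg h0 h1 rfl rfl
    refine ⟨F, _, _, hF, Or.inr ⟨rfl, rfl⟩, h2, h3, h4, ?_, h7, h8, ?_⟩
    · intro m hm
      rw [h6 m hm]
      by_cases h : (q : ℕ) < m ∧ m ≤ p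
      · rw [if_pos h, if_neg (by omega)]
      · rw [if_neg h, if_pos (by omega)]
    · intro j x h10 h11
      rw [h9 j x h11 h10]
      split_ifs
      · right; rfl
      · left; rfl

end Vale.Agent.P183
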