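import Vale.Agent.P183.Mk

namespace Vale.Agent.P183

open Relation

universe u

variable {L : Type u} [Lattice L] [BoundedOrder L] [Fintype L]

open Classical in
/-- The covers of `a` used by the gadget of `a`. -/
noncomputable def covs (ρ : L → ℕ) (a : L) : Finset (Finset L) :=
  Finset.univ.filter (fun C => ∃ hC : C.Nonempty, (∀ c ∈ C, SupIrred c ∧ ρ c < ρ a) ∧
    a ≤ C.sup' hC id)

open Classical in
noncomputable def hgt (a : L) : ℕ := (Finset.univ.filter (· ≤ a)).card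

noncomputable def Nf (a : L) : ℕ := (2 * Fintype.card L + 3) ^ hgt a

theorem hgt_pos (a : L) : 0 < hgt a := by
  classical
  unfold hgt
  exact Finset.card_pos.mpr ⟨a, by simp⟩

theorem hgt_lt {a b : L} (h : a < b) : hgt a < hgt b := by
  classical
  unfold hgt
  apply Finset.card_lt_card
  refine ⟨fun x hx => ?_, fun hs => ?_⟩
  · simp only [Finset.mem_filter, Finset.mem_univ, true_and] at hx ⊢
    exact hx.trans h.le
  · have : b ∈ Finset.univ.filter (· ≤ a) := hs (by simp)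
    simp only [Finset.mem_filter, Finset.mem_univ, true_and] at this
    exact absurd (lt_of_lt_of_le h this) (lt_irrefl _)

theorem Nf_ge (a : L) : 3 ≤ Nf a := by
  unfold Nf
  have h := hgt_pos a
  calc 3 ≤ 2 * Fintype.card L + 3 := by omega
    _ = (2 * Fintype.card L + 3) ^ 1 := (pow_one _).symm
    _ ≤ _ := Nat.pow_le_pow_right (by omega) h

theorem Nf_pos (a : L) : 0 < Nf a := by
  have := Nf_ge a
  omega

theorem Nf_lt {a b : L} (h : a < b) (C : Finset L) : Nf a * (2 * C.card) ≤ Nf b := by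
  unfold Nf
  have h1 := hgt_lt h
  have h2 : C.card ≤ Fintype.card L := Finset.card_le_univ C
  calc (2 * Fintype.card L + 3) ^ hgt a * (2 * C.card)
      ≤ (2 * Fintype.card L + 3) ^ hgt a * (2 * Fintype.card L + 3) :=
        Nat.mul_le_mul_left _ (by omega)
    _ = (2 * Fintype.card L + 3) ^ (hgt a + 1) := (pow_succ _ _).symm
    _ ≤ _ := Nat.pow_le_pow_right (by omega) h1

/-- The gadget of `a`. -/
noncomputable def G (ρ : L → ℕ) (a : L) : Bip L :=
  mk a (covs ρ a) (Nf a)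
    (fun c => if h : ρ c < ρ a then G ρ c else ⟨Empty, inferInstance, fun _ _ _ => False⟩)
termination_by ρ a
decreasing_by exact h

variable (ρ : L → ℕ)

theorem mem_covs {a : L} {C : Finset L} : C ∈ covs ρ a ↔
    ∃ hC : C.Nonempty, (∀ c ∈ C, SupIrred c ∧ ρ c < ρ a) ∧ a ≤ C.sup' hC id := by
  classical
  unfold covs
  simp

theorem covs_ne {a : L} {C : Finset L} (h : C ∈ covs ρ a) : C.Nonempty :=
  ((mem_covs ρ).1 h).1

theorem covs_letter {a : L} {C : Finset L} (h : C ∈ covs ρ a) {c : L} (hc : c ∈ C) :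
    SupIrred c ∧ ρ c < ρ a := by
  obtain ⟨_, h1, _⟩ := (mem_covs ρ).1 h
  exact h1 c hc

theorem G_eq (a : L) : G ρ a = mk a (covs ρ a) (Nf a) (G ρ) := by
  rw [G]
  apply mk_congr (fun C hC => covs_ne ρ hC)
  intro C hC c hc
  rw [dif_pos (covs_letter ρ hC hc).2]

variable {ρ}

theorem sem_G {a : L} {Y : Type} {lv : L → Setoid Y} {u v : Y} :
    (G ρ a).Sem lv u v ↔ lv a u v ∧
      ∀ C ∈ covs ρ a, Chain (fun j => (G ρ (wd C j)).Sem lv) 0 (Nf a * (2 * C.card)) u v := by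
  rw [G_eq ρ a]
  exact sem_mk (Nf_pos a) (fun C hC => covs_ne ρ hC)

theorem symP_G (a : L) : (G ρ a).SymP := by
  induction' hn : ρ a using Nat.strong_induction_on with n ih generalizing a
  intro Y lv u v h
  obtain ⟨h1, h2⟩ := sem_G.1 h
  refine sem_G.2 ⟨(lv a).symm' h1, fun C hC => ?_⟩
  obtain ⟨y, h0, hl, hs⟩ := h2 C hC
  have hne := covs_ne ρ hC
  refine ⟨fun j => y (Nf a * (2 * C.card) - j), ?_, ?_, fun j _ hj => ?_⟩
  · simpa using hl
  · simpa using h0
  · have hj' : Nf a * (2 * C.card) - 1 - j < Nf a * (2 * C.card) := by omega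
    have h3 := hs _ (Nat.zero_le _) hj'
    simp only at h3
    rw [wd_pal hne hj] at h3
    have h4 := ih (ρ (wd C j)) (by rw [← hn]; exact (covs_letter ρ hC (wd_mem hne j)).2) _ rfl
      Y lv _ _ h3
    simp only
    rw [show Nf a * (2 * C.card) - 1 - j + 1 = Nf a * (2 * C.card) - j by omega,
      show Nf a * (2 * C.card) - 1 - j = Nf a * (2 * C.card) - (j + 1) by omega] at h4
    exact h4

theorem wd_sem_period {g : L → Bip L} {Y : Type} {lv : L → Setoid Y} (C : Finset L) (j : ℕ) :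
    (fun j => (g (wd C j)).Sem lv) (j + 2 * C.card) = (fun j => (g (wd C j)).Sem lv) j := by
  simp only [wd_period]

/-- One letter of a period suffices for a single step. -/
theorem chain_letter {g : L → Bip L} {Y : Type} {lv : L → Setoid Y} {C : Finset L} {c : L}
    (hc : c ∈ C) {N : ℕ} (hN : 0 < N) {u v : Y} (h : (g c).Sem lv u v) :
    Chain (fun j => (g (wd C j)).Sem lv) 0 (N * (2 * C.card)) u v := by
  classical
  obtain ⟨e, he, rfl⟩ := wd_surj hc
  have := Chain.travel (S := fun j => (g (wd C j)).Sem lv) (fun _ x => Bip.Sem.refl _ lv x)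
    (wd_sem_period C) (fun t => if t = 0 then u else v) (M := 1) (N := N) hN
    (fun t ht => ⟨e, he, by
      have : t = 0 := by omega
      subst this
      simpa using h⟩)
  simpa using this

/-- The rank condition. -/
def RankCond (ρ : L → ℕ) : Prop :=
  ∀ a : L, SupIrred a → ∀ (B : Finset L) (hB : B.Nonempty),
    a ≤ B.sup' hB id → (∀ b ∈ B, ¬ a ≤ b) →
    ∃ (C : Finset L) (hC : C.Nonempty),
      (∀ c ∈ C, SupIrred c ∧ ρ c < ρ a ∧ ∃ b ∈ B, c ≤ b) ∧ a ≤ C.sup' hC id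

theorem inc (hρ : RankCond ρ) {Y : Type} {lv : L → Setoid Y} (hlv : ∀ s t, s ≤ t → lv s ≤ lv t)
    (a a' : L) (ha' : SupIrred a') (hle : a' ≤ a) (u v : Y) (h : (G ρ a').Sem lv u v) :
    (G ρ a).Sem lv u v := by
  induction' hn : ρ a using Nat.strong_induction_on with n ih generalizing a a' u v
  by_cases heq : a' = a
  · subst heq
    exact h
  have hlt : a' < a := lt_of_le_of_ne hle heq
  obtain ⟨h1, h2⟩ := sem_G.1 h
  refine sem_G.2 ⟨hlv _ _ hle h1, fun C hC => ?_⟩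
  have hne := covs_ne ρ hC
  by_cases hex : ∃ c ∈ C, a' ≤ c
  · obtain ⟨c, hc, hac⟩ := hex
    have h3 := ih (ρ c) (by rw [← hn]; exact (covs_letter ρ hC hc).2) c a' ha' hac u v h rfl
    exact chain_letter hc (Nf_pos a) h3
  · have hex' : ∀ b ∈ C, ¬ a' ≤ b := fun b hb hab => hex ⟨b, hb, hab⟩
    obtain ⟨_, _, hsup⟩ := (mem_covs ρ).1 hC
    obtain ⟨C', hC', h3, h4⟩ := hρ a' ha' C hne (hle.trans hsup) hex'
    have hC'mem : C' ∈ covs ρ a' := (mem_covs ρ).2 ⟨hC', fun c hc => ⟨(h3 c hc).1, (h3 c hc).2.1⟩, h4⟩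
    obtain ⟨y, h0, hl, hs⟩ := h2 C' hC'mem
    have := Chain.travel (S := fun j => (G ρ (wd C j)).Sem lv) (fun _ x => Bip.Sem.refl _ lv x)
      (wd_sem_period C) y (Nf_lt hlt C') (fun t ht => by
        have h5 := hs t (Nat.zero_le _) ht
        obtain ⟨h6, -, b, hb, hcb⟩ := h3 _ (wd_mem hC' t)
        have h7 := ih (ρ b) (by rw [← hn]; exact (covs_letter ρ hC hb).2) b _ h6 hcb _ _ h5 rfl
        obtain ⟨e, he, rfl⟩ := wd_surj hb
        exact ⟨e, he, h7⟩)
    rwa [h0, hl] at this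

theorem PL_G (a : L) : (G ρ a).PLProp := by
  induction' hn : ρ a using Nat.strong_induction_on with n ih generalizing a
  rw [G_eq ρ a]
  exact PL_mk (Nf_ge a) (fun C hC => covs_ne ρ hC)
    (fun C hC c hc => ih (ρ c) (by rw [← hn]; exact (covs_letter ρ hC hc).2) c rfl)
    (fun C _ c _ => symP_G c)

/-- Occurrences of gadgets. -/
def Occ (ρ : L → ℕ) (T : Bip L) (c : L) (x y : T.Vert) : Prop :=
  ∃ ι : (G ρ c).Vert → T.Vert, Occurrence T (G ρ c) ι ∧
    ι (Sum.inl false) = x ∧ ι (Sum.inl true) = y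

theorem occ_edges (a : L) (ha : SupIrred a) (T K : Bip L) (ι : K.Vert → T.Vert) (hK : K = G ρ a)
    (hι : Occurrence T K ι) (ℓ : L) (u v : K.Vert) (e : K.E ℓ u v) :
    SupIrred ℓ ∧ Occ ρ T ℓ (ι u) (ι v) := by
  induction' hn : ρ a using Nat.strong_induction_on with n ih generalizing a K ι ℓ u v
  have hroot : Occ ρ T a (ι (Sum.inl false)) (ι (Sum.inl true)) := by
    subst hK
    exact ⟨ι, hι, rfl, rfl⟩
  rw [G_eq ρ a] at hK
  subst hK
  change NE _ _ _ _ _ at e
  cases e with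
  | root => exact ⟨ha, hroot⟩
  | sub i j e =>
    have hC := Cf_mem (covs ρ a) i
    have hl := covs_letter ρ hC (wd_mem (covs_ne ρ hC) j)
    obtain ⟨q, hq1, -, hq3⟩ := mk_H1 (g := G ρ) (Nf_ge a) (fun C hC => covs_ne ρ hC) i j j
    have h := occ_emb (kid := mkKid (covs ρ a) (Nf a) (G ρ)) (a := a) i j (symP_G _) ⟨q, hq1, hq3⟩
    exact ih (ρ (wd (Cf (covs ρ a) i) j)) (by rw [← hn]; exact hl.2) _ hl.1 _
      (fun x => ι (emb (mkKid (covs ρ a) (Nf a) (G ρ)) i j x)) rfl (hι.trans h) ℓ _ _ e rfl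

theorem occ_chain {T : Bip L} {c : L} {x y : T.Vert} (h : Occ ρ T c x y) {C : Finset L}
    (hC : C ∈ covs ρ c) :
    ∃ y' : ℕ → T.Vert, y' 0 = x ∧ y' (Nf c * (2 * C.card)) = y ∧
      ∀ j, j < Nf c * (2 * C.card) → Occ ρ T (wd C j) (y' j) (y' (j + 1)) := by
  have key : ∀ K, K = G ρ c → ∀ ι : K.Vert → T.Vert, Occurrence T K ι →
      ∃ y' : ℕ → T.Vert, y' 0 = ι (Sum.inl false) ∧
        y' (Nf c * (2 * C.card)) = ι (Sum.inl true) ∧
        ∀ j, j < Nf c * (2 * C.card) → Occ ρ T (wd C j) (y' j) (y' (j + 1)) := by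
    intro K hK
    rw [G_eq ρ c] at hK
    subst hK
    intro ι hι
    exact mk_ear (Nf_ge c) (fun C hC => covs_ne ρ hC) (fun C _ c _ => symP_G c) hC hι
  obtain ⟨ι, hι, rfl, rfl⟩ := h
  exact key _ rfl ι hι

end Vale.Agent.P183
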