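import Vale.Agent.P183.Word

namespace Vale.Agent.P183

open Relation

universe u

variable {L : Type u}

/-- An occurrence of `K` in `T`: edges go to edges and every morphism extends. -/
def Occurrence (T K : Bip L) (ι : K.Vert → T.Vert) : Prop :=
  (∀ ℓ u v, K.E ℓ u v → T.E ℓ (ι u) (ι v)) ∧
  ∀ (Y : Type) (lv : L → Setoid Y) (f : K.Vert → Y), K.IsMor lv f →
    ∃ F : T.Vert → Y, T.IsMor lv F ∧ ∀ x, F (ι x) = f x

theorem Occurrence.refl (T : Bip L) : Occurrence T T id :=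
  ⟨fun _ _ _ e => e, fun _ _ f hf => ⟨f, hf, fun _ => rfl⟩⟩

theorem Occurrence.trans {T K K' : Bip L} {ι : K.Vert → T.Vert} {ι' : K'.Vert → K.Vert}
    (h1 : Occurrence T K ι) (h2 : Occurrence K K' ι') : Occurrence T K' (fun x => ι (ι' x)) := by
  refine ⟨fun ℓ u v e => h1.1 ℓ _ _ (h2.1 ℓ _ _ e), fun Y lv f hf => ?_⟩
  obtain ⟨F, hF, hF'⟩ := h2.2 Y lv f hf
  obtain ⟨F2, hF2, hF2'⟩ := h1.2 Y lv F hF
  exact ⟨F2, hF2, fun x => by rw [hF2', hF']⟩

theorem occ_emb_tw {ne : ℕ} {len : Fin ne → ℕ} {kid : (i : Fin ne) → Fin (len i + 1) → Bip L} {a : L}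
    (i : Fin ne) (p : Fin (len i + 1))
    (hq : ∃ q, q ≠ p ∧ (kid i p).Tw (kid i q)) : Occurrence (node kid a) (kid i p) (emb kid i p) := by
  refine ⟨fun ℓ u v e => emb_edge i p e, fun Y lv f hf => ?_⟩
  obtain ⟨q, hq1, hq2⟩ := hq
  obtain ⟨F, c, b, hF, -, -, -, h4, -⟩ := fold (a := a) i p q hq1.symm hq2 hf
  exact ⟨F, hF, h4⟩

theorem occ_emb {ne : ℕ} {len : Fin ne → ℕ} {kid : (i : Fin ne) → Fin (len i + 1) → Bip L} {a : L}
    (i : Fin ne) (p : Fin (len i + 1)) (hsym : (kid i p).SymP)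
    (hq : ∃ q, q ≠ p ∧ kid i q = kid i p) : Occurrence (node kid a) (kid i p) (emb kid i p) := by
  obtain ⟨q, hq1, hq2⟩ := hq
  exact occ_emb_tw i p ⟨q, hq1, Bip.Tw.of_eq hq2 hsym⟩

section mk

variable [Bot L]

/-- The finset number `i` of a family. -/
noncomputable def Cf (F : Finset (Finset L)) (i : Fin F.card) : Finset L := (F.equivFin.symm i).1

theorem Cf_mem (F : Finset (Finset L)) (i : Fin F.card) : Cf F i ∈ F := (F.equivFin.symm i).2

theorem Cf_surj {F : Finset (Finset L)} {C : Finset L} (hC : C ∈ F) : ∃ i, Cf F i = C :=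
  ⟨F.equivFin ⟨C, hC⟩, by simp [Cf]⟩

noncomputable def mkLen (F : Finset (Finset L)) (N : ℕ) (i : Fin F.card) : ℕ :=
  N * (2 * (Cf F i).card) - 1

noncomputable def mkKid (F : Finset (Finset L)) (N : ℕ) (g : L → Bip L) (i : Fin F.card)
    (j : Fin (mkLen F N i + 1)) : Bip L := g (wd (Cf F i) j)

/-- The node with one ear for each member of the family `F`, with `N` periods of its word, where
the letter `c` is replaced by `g c`. -/
noncomputable def mk (a : L) (F : Finset (Finset L)) (N : ℕ) (g : L → Bip L) : Bip L :=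
  node (mkKid F N g) a

variable {a : L} {F : Finset (Finset L)} {N : ℕ} {g : L → Bip L}

theorem mkLen_succ (hN : 0 < N) (hne : ∀ C ∈ F, C.Nonempty) (i : Fin F.card) :
    mkLen F N i + 1 = N * (2 * (Cf F i).card) := by
  have h1 := (hne _ (Cf_mem F i)).card_pos
  have h2 : 0 < N * (2 * (Cf F i).card) := Nat.mul_pos hN (by omega)
  unfold mkLen
  omega

theorem sem_mk (hN : 0 < N) (hne : ∀ C ∈ F, C.Nonempty) {Y : Type} {lv : L → Setoid Y} {u v : Y} :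
    (mk a F N g).Sem lv u v ↔ lv a u v ∧
      ∀ C ∈ F, Chain (fun j => (g (wd C j)).Sem lv) 0 (N * (2 * C.card)) u v := by
  unfold mk
  rw [sem_node]
  constructor
  · rintro ⟨h1, h2⟩
    refine ⟨h1, fun C hC => ?_⟩
    obtain ⟨i, rfl⟩ := Cf_surj hC
    obtain ⟨y, h0, hl, hs⟩ := h2 i
    refine ⟨y, h0, ?_, fun j _ hj => ?_⟩
    · rw [← mkLen_succ hN hne i]
      exact hl
    · exact hs ⟨j, by rw [mkLen_succ hN hne i]; exact hj⟩
  · rintro ⟨h1, h2⟩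
    refine ⟨h1, fun i => ?_⟩
    obtain ⟨y, h0, hl, hs⟩ := h2 _ (Cf_mem F i)
    refine ⟨y, h0, by rw [mkLen_succ hN hne i]; exact hl, fun j => ?_⟩
    refine hs j (Nat.zero_le _) ?_
    have h3 := j.2
    have h4 := mkLen_succ hN hne i
    omega

theorem mk_congr {g' : L → Bip L} (hne : ∀ C ∈ F, C.Nonempty)
    (h : ∀ C ∈ F, ∀ c ∈ C, g c = g' c) : mk a F N g = mk a F N g' := by
  have : mkKid F N g = mkKid F N g' := by
    funext i j
    exact h _ (Cf_mem F i) _ (wd_mem (hne _ (Cf_mem F i)) _)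
  unfold mk
  rw [this]

theorem mk_H1 (hN : 3 ≤ N) (hne : ∀ C ∈ F, C.Nonempty) (i : Fin F.card)
    (p r : Fin (mkLen F N i + 1)) :
    ∃ q, q ≠ p ∧ q ≠ r ∧ mkKid F N g i q = mkKid F N g i p := by
  have h1 := (hne _ (Cf_mem F i)).card_pos
  have h2 := mkLen_succ (N := N) (by omega) hne i
  have h3 : 3 * (2 * (Cf F i).card) ≤ mkLen F N i + 1 := by
    rw [h2]
    exact Nat.mul_le_mul_right _ hN
  obtain ⟨q, hq1, hq2, hq3, hq4⟩ := period_H1 (w := wd (Cf F i)) (by omega) h3 (wd_period _) p r p.2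
  refine ⟨⟨q, hq1⟩, fun h => hq2 (congrArg Fin.val h), fun h => hq3 (congrArg Fin.val h), ?_⟩
  exact congrArg g hq4

theorem mk_H3 (hN : 3 ≤ N) (hne : ∀ C ∈ F, C.Nonempty) (i : Fin F.card) (k l : ℕ) (hkl : k < l)
    (hl : l ≤ mkLen F N i + 1) :
    (∀ p : Fin (mkLen F N i + 1), k ≤ p → (p : ℕ) < l →
      ∃ q : Fin (mkLen F N i + 1), ¬ (k ≤ q ∧ (q : ℕ) < l) ∧
        mkKid F N g i q = mkKid F N g i p) ∨
    (∀ p : Fin (mkLen F N i + 1), ¬ (k ≤ p ∧ (p : ℕ) < l) →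
      ∃ q : Fin (mkLen F N i + 1), (k ≤ q ∧ (q : ℕ) < l) ∧
        mkKid F N g i q = mkKid F N g i p) := by
  have h1 := (hne _ (Cf_mem F i)).card_pos
  have h2 := mkLen_succ (N := N) (by omega) hne i
  have h3 : 2 * (2 * (Cf F i).card) ≤ mkLen F N i + 1 := by
    rw [h2]
    exact Nat.mul_le_mul_right _ (by omega)
  rcases period_H3 (w := wd (Cf F i)) (by omega) h3 (wd_period _) k l hkl hl with hA | hB
  · left
    intro p hp1 hp2
    obtain ⟨q, hq1, hq2, hq3⟩ := hA p p.2 hp1 hp2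
    exact ⟨⟨q, hq1⟩, hq2, congrArg g hq3⟩
  · right
    intro p hp1
    obtain ⟨q, hq1, hq2, hq3⟩ := hB p p.2 hp1
    exact ⟨⟨q, hq1⟩, hq2, congrArg g hq3⟩

theorem PL_mk [Preorder L] (hN : 3 ≤ N) (hne : ∀ C ∈ F, C.Nonempty)
    (hPL : ∀ C ∈ F, ∀ c ∈ C, (g c).PLProp) (hSym : ∀ C ∈ F, ∀ c ∈ C, (g c).SymP) :
    (mk a F N g).PLProp :=
  have hS : ∀ (i : Fin F.card) (p : Fin (mkLen F N i + 1)), (mkKid F N g i p).SymP :=
    fun i _ => hSym _ (Cf_mem F i) _ (wd_mem (hne _ (Cf_mem F i)) _)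
  PL_node (fun i _ => hPL _ (Cf_mem F i) _ (wd_mem (hne _ (Cf_mem F i)) _))
    (fun i p r => by
      obtain ⟨q, h1, h2, h3⟩ := mk_H1 (g := g) hN hne i p r
      exact ⟨q, h1, h2, Bip.Tw.of_eq h3 (hS i p)⟩)
    (fun i k l hkl hl => by
      rcases mk_H3 (g := g) hN hne i k l hkl hl with h | h
      · left
        intro p h1 h2
        obtain ⟨q, h3, h4⟩ := h p h1 h2
        exact ⟨q, h3, Bip.Tw.of_eq h4 (hS i p)⟩
      · right
        intro p h1
        obtain ⟨q, h3, h4⟩ := h p h1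
        exact ⟨q, h3, Bip.Tw.of_eq h4 (hS i p)⟩)

/-- Kids of `mk` are occurrences. -/
theorem mk_ear (hN : 3 ≤ N) (hne : ∀ C ∈ F, C.Nonempty) (hSym : ∀ C ∈ F, ∀ c ∈ C, (g c).SymP)
    {C : Finset L} (hC : C ∈ F) {T : Bip L} {ι : (mk a F N g).Vert → T.Vert}
    (hι : Occurrence T (mk a F N g) ι) :
    ∃ y : ℕ → T.Vert, y 0 = ι (Sum.inl false) ∧ y (N * (2 * C.card)) = ι (Sum.inl true) ∧
      ∀ j, j < N * (2 * C.card) → ∃ ι' : (g (wd C j)).Vert → T.Vert,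
        Occurrence T (g (wd C j)) ι' ∧ ι' (Sum.inl false) = y j ∧ ι' (Sum.inl true) = y (j + 1) := by
  obtain ⟨i, rfl⟩ := Cf_surj hC
  refine ⟨fun k => ι (jun (mkKid F N g) i k), congrArg ι (jun_zero _ i), ?_, fun j hj => ?_⟩
  · have e : jun (mkKid F N g) i (N * (2 * (Cf F i).card)) = Sum.inl true := by
      rw [← mkLen_succ (by omega) hne i]
      exact jun_last _ i
    exact congrArg ι e
  · have hj' : j < mkLen F N i + 1 := by rw [mkLen_succ (by omega) hne i]; exact hj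
    let p : Fin (mkLen F N i + 1) := ⟨j, hj'⟩
    obtain ⟨q, hq1, -, hq3⟩ := mk_H1 (g := g) hN hne i p p
    have h := occ_emb (kid := mkKid F N g) (a := a) i p
      (hSym _ (Cf_mem F i) _ (wd_mem (hne _ (Cf_mem F i)) _)) ⟨q, hq1, hq3⟩
    exact ⟨fun x => ι (emb (mkKid F N g) i p x), hι.trans h, rfl, rfl⟩

end mk

end Vale.Agent.P183
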