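import Vale.Agent.P183.Fold

namespace Vale.Agent.P183

open Relation

universe u

variable {L : Type u} [Preorder L]
variable {ne : ℕ} {len : Fin ne → ℕ} {kid : (i : Fin ne) → Fin (len i + 1) → Bip L}

theorem conn_emb {a : L} (i : Fin ne) (j : Fin (len i + 1)) {t : L} {x y : (kid i j).Vert}
    (h : (kid i j).conn t x y) : (node kid a).conn t (emb kid i j x) (emb kid i j y) := by
  change EqvGen _ x y at h
  induction h with
  | rel _ _ h =>
    obtain ⟨ℓ, hℓ, e⟩ := h
    exact (node kid a).conn_edge hℓ (emb_edge i j e)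
  | refl x => exact ((node kid a).conn t).refl' _
  | symm _ _ _ ih => exact ((node kid a).conn t).symm' ih
  | trans _ _ _ _ _ ih1 ih2 => exact ((node kid a).conn t).trans' ih1 ih2

section PL

variable {a : L} {θ : Setoid (NV kid)}

theorem ec_emb (i : Fin ne) (j : Fin (len i + 1)) {x y : (kid i j).Vert}
    (h : (kid i j).EC (Setoid.comap (emb kid i j) θ) x y) :
    (node kid a).EC θ (emb kid i j x) (emb kid i j y) := by
  change EqvGen _ x y at h
  induction h with
  | rel _ _ h =>
    obtain ⟨⟨ℓ, e⟩, h⟩ := h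
    exact EqvGen.rel _ _ ⟨⟨ℓ, emb_edge i j e⟩, h⟩
  | refl x => exact EqvGen.refl _
  | symm _ _ _ ih => exact EqvGen.symm _ _ ih
  | trans _ _ _ _ _ ih1 ih2 => exact EqvGen.trans _ _ _ ih1 ih2

theorem ec_chain (hθ : True) (i : Fin ne) {k l : ℕ} (hkl : k ≤ l) (hl : l ≤ len i + 1)
    (h : ∀ p : Fin (len i + 1), k ≤ p → (p : ℕ) < l →
      (node kid a).EC θ (jun kid i p) (jun kid i (p + 1))) :
    (node kid a).EC θ (jun kid i k) (jun kid i l) := by
  induction l, hkl using Nat.le_induction with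
  | base => exact EqvGen.refl _
  | succ l hkl ih =>
    refine EqvGen.trans _ _ _ (ih (by omega) (fun p h1 h2 => h p h1 (by omega))) ?_
    exact h ⟨l, by omega⟩ hkl (by simp)

end PL

/-- The main lemma on closed equivalences: if all the kids have the property and the words on the
ears are sufficiently repetitive then the node has the property. -/
theorem PL_node {a : L} (hPL : ∀ i j, (kid i j).PLProp)
    (H1 : ∀ i (p r : Fin (len i + 1)), ∃ q, q ≠ p ∧ q ≠ r ∧ (kid i p).Tw (kid i q))
    (H3 : ∀ i (k l : ℕ), k < l → l ≤ len i + 1 →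
      (∀ p : Fin (len i + 1), k ≤ p → (p : ℕ) < l →
        ∃ q : Fin (len i + 1), ¬ (k ≤ q ∧ (q : ℕ) < l) ∧ (kid i p).Tw (kid i q)) ∨
      (∀ p : Fin (len i + 1), ¬ (k ≤ p ∧ (p : ℕ) < l) →
        ∃ q : Fin (len i + 1), (k ≤ q ∧ (q : ℕ) < l) ∧ (kid i p).Tw (kid i q))) :
    (node kid a).PLProp := by
  intro θ hθ
  -- edges of kids
  have hemb : ∀ i j, (kid i j).IsMor ((node kid a).conn) (emb kid i j) :=
    fun i j ℓ u v e => (node kid a).conn_edge le_rfl (emb_edge i j e)
  -- Step A: pairs inside a kid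
  have stepA : ∀ i (p : Fin (len i + 1)) (x y : (kid i p).Vert),
      θ (emb kid i p x) (emb kid i p y) → (node kid a).EC θ (emb kid i p x) (emb kid i p y) := by
    intro i p x y h
    apply ec_emb
    refine hPL i p (Setoid.comap (emb kid i p) θ) ?_ x y h
    intro f hf u v huv
    have hg : (kid i p).IsMor ((node kid a).conn) (fun x => emb kid i p (f x)) :=
      fun ℓ u v e => conn_emb i p (hf ℓ u v e)
    obtain ⟨q, hq1, -, hq3⟩ := H1 i p p
    obtain ⟨F, c, b, hF, -, -, -, h4, -⟩ := fold (a := a) i p q hq1.symm hq3 hg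
    have := hθ F hF _ _ huv
    rw [h4, h4] at this
    exact this
  have hunit : ∀ i (p : Fin (len i + 1)), θ (jun kid i p) (jun kid i (p + 1)) →
      (node kid a).EC θ (jun kid i p) (jun kid i (p + 1)) :=
    fun i p h => stepA i p (Sum.inl false) (Sum.inl true) h
  -- Step L1
  have hL1 : ∀ i (k l : ℕ), k < l → l ≤ len i + 1 →
      (∀ (F : NV kid → NV kid) (c : NV kid), (node kid a).IsMor ((node kid a).conn) F →
        F (Sum.inl false) = c → F (Sum.inl true) = c →
        (∀ i', i' ≠ i → ∀ m, m ≤ len i' + 1 → F (jun kid i' m) = c) →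
        θ (F (jun kid i k)) (F (jun kid i l))) →
      (node kid a).EC θ (jun kid i k) (jun kid i l) ∨
      ((node kid a).EC θ (Sum.inl false) (jun kid i k) ∧
        (node kid a).EC θ (jun kid i l) (Sum.inl true)) := by
    intro i k l hkl hl hF
    -- flipping
    have key : ∀ p q : Fin (len i + 1), p ≠ q → (kid i p).Tw (kid i q) →
        (((k ≤ p ∧ (p : ℕ) < l) ∧ ¬ (k ≤ q ∧ (q : ℕ) < l)) ∨
         (¬ (k ≤ p ∧ (p : ℕ) < l) ∧ (k ≤ q ∧ (q : ℕ) < l))) →
        (node kid a).EC θ (jun kid i p) (jun kid i (p + 1)) := by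
      intro p q hpq hs hflip
      obtain ⟨F, c, b, hFm, hcb, h2, h3, -, h5, h6, -, -⟩ :=
        fold (a := a) i p q hpq hs (hemb i p)
      have hθ' := hF F c hFm h2 h3 h6
      rw [h5 k (by omega), h5 l hl] at hθ'
      apply hunit
      have hdiff : (((p : ℕ) < k ↔ (q : ℕ) < k) ∧ ¬ ((p : ℕ) < l ↔ (q : ℕ) < l)) ∨
          (¬ ((p : ℕ) < k ↔ (q : ℕ) < k) ∧ ((p : ℕ) < l ↔ (q : ℕ) < l)) := by omega
      rcases hdiff with ⟨h7, h8⟩ | ⟨h7, h8⟩
      · rw [if_pos h7, if_neg h8] at hθ'
        rcases hcb with ⟨rfl, rfl⟩ | ⟨rfl, rfl⟩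
        · exact hθ'
        · exact θ.symm' hθ'
      · rw [if_neg h7, if_pos h8] at hθ'
        rcases hcb with ⟨rfl, rfl⟩ | ⟨rfl, rfl⟩
        · exact θ.symm' hθ'
        · exact hθ'
    rcases H3 i k l hkl hl with hA | hB
    · left
      refine ec_chain trivial i hkl.le hl (fun p h1 h2 => ?_)
      obtain ⟨q, hq1, hq2⟩ := hA p h1 h2
      refine key p q ?_ hq2 (Or.inl ⟨⟨h1, h2⟩, hq1⟩)
      rintro rfl
      exact hq1 ⟨h1, h2⟩
    · right
      have hC : ∀ p : Fin (len i + 1), ¬ (k ≤ p ∧ (p : ℕ) < l) →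
          (node kid a).EC θ (jun kid i p) (jun kid i (p + 1)) := by
        intro p hp
        obtain ⟨q, hq1, hq2⟩ := hB p hp
        refine key p q ?_ hq2 (Or.inr ⟨hp, hq1⟩)
        rintro rfl
        exact hp hq1
      constructor
      · have := ec_chain (θ := θ) (a := a) trivial i (Nat.zero_le k) (show k ≤ len i + 1 by omega)
          (fun p h1 h2 => hC p (by omega))
        rwa [jun_zero] at this
      · have := ec_chain (θ := θ) (a := a) trivial i hl le_rfl
          (fun p h1 h2 => hC p (by omega))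
        rwa [jun_last] at this
  -- the same ear
  have hsame : ∀ i (k l : ℕ), k ≤ len i + 1 → l ≤ len i + 1 →
      θ (jun kid i k) (jun kid i l) → (node kid a).EC θ (jun kid i k) (jun kid i l) := by
    have hlt : ∀ i (k l : ℕ), k < l → l ≤ len i + 1 →
        θ (jun kid i k) (jun kid i l) → (node kid a).EC θ (jun kid i k) (jun kid i l) := by
      intro i k l hkl hl h
      rcases hL1 i k l hkl hl (fun F c hF _ _ _ => hθ F hF _ _ h) with h1 | ⟨h1, h2⟩
      · exact h1
      · have hst : θ (Sum.inl false) (Sum.inl true) :=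
          θ.trans' (θ.trans' (Bip.EC.le _ _ h1) h) (Bip.EC.le _ _ h2)
        have hst' : (node kid a).EC θ (Sum.inl false) (Sum.inl true) :=
          EqvGen.rel _ _ ⟨⟨a, NE.root⟩, hst⟩
        exact EqvGen.trans _ _ _ (EqvGen.trans _ _ _ (EqvGen.symm _ _ h1) hst') (EqvGen.symm _ _ h2)
    intro i k l hk hl h
    rcases lt_trichotomy k l with h1 | h1 | h1
    · exact hlt i k l h1 hl h
    · subst h1; exact EqvGen.refl _
    · exact EqvGen.symm _ _ (hlt i l k h1 hk (θ.symm' h))
  -- junction vertices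
  have hJ0 : ∀ i (l : ℕ), l ≤ len i + 1 → θ (Sum.inl false) (jun kid i l) →
      (node kid a).EC θ (Sum.inl false) (jun kid i l) := by
    intro i l hl h
    have := hsame i 0 l (by omega) hl (by rwa [jun_zero])
    rwa [jun_zero] at this
  have hJ1 : ∀ i (l : ℕ), l ≤ len i + 1 → θ (Sum.inl true) (jun kid i l) →
      (node kid a).EC θ (Sum.inl true) (jun kid i l) := by
    intro i l hl h
    have := hsame i (len i + 1) l (by omega) hl (by rwa [jun_last])
    rwa [jun_last] at this
  -- different ears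
  have hdiff : ∀ i i' (k l : ℕ), i ≠ i' → k ≤ len i + 1 → l ≤ len i' + 1 →
      θ (jun kid i k) (jun kid i' l) → (node kid a).EC θ (jun kid i k) (jun kid i' l) := by
    intro i i' k l hi hk hl h
    by_cases hk' : k = len i + 1
    · subst hk'
      rw [jun_last] at h ⊢
      exact hJ1 i' l hl h
    have := hL1 i k (len i + 1) (by omega) le_rfl (by
      intro F c hF h2 h3 h4
      have h5 := hθ F hF _ _ h
      rw [h4 i' hi.symm l hl] at h5
      rw [jun_last, h3]
      exact h5)
    rcases this with h1 | ⟨h1, -⟩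
    · rw [jun_last] at h1
      refine EqvGen.trans _ _ _ h1 (hJ1 i' l hl ?_)
      exact θ.trans' (θ.symm' (Bip.EC.le _ _ h1)) h
    · refine EqvGen.trans _ _ _ (EqvGen.symm _ _ h1) (hJ0 i' l hl ?_)
      exact θ.trans' (Bip.EC.le _ _ h1) h
  -- all junction pairs
  have hjj : ∀ i i' (k l : ℕ), k ≤ len i + 1 → l ≤ len i' + 1 →
      θ (jun kid i k) (jun kid i' l) → (node kid a).EC θ (jun kid i k) (jun kid i' l) := by
    intro i i' k l hk hl h
    by_cases hi : i = i'
    · subst hi
      exact hsame i k l hk hl h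
    · exact hdiff i i' k l hi hk hl h
  let Jv : NV kid → Prop := fun x => x = Sum.inl false ∨ x = Sum.inl true ∨
    ∃ i k, k ≤ len i + 1 ∧ x = jun kid i k
  have hJJ : ∀ x y, Jv x → Jv y → θ x y → (node kid a).EC θ x y := by
    have hs : ∀ y, Jv y → θ (Sum.inl false) y → (node kid a).EC θ (Sum.inl false) y := by
      rintro y (rfl | rfl | ⟨i, k, hk, rfl⟩) h
      · exact EqvGen.refl _
      · exact EqvGen.rel _ _ ⟨⟨a, NE.root⟩, h⟩
      · exact hJ0 i k hk h
    have ht : ∀ y, Jv y → θ (Sum.inl true) y → (node kid a).EC θ (Sum.inl true) y := by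
      rintro y (rfl | rfl | ⟨i, k, hk, rfl⟩) h
      · exact EqvGen.symm _ _ (EqvGen.rel _ _ ⟨⟨a, NE.root⟩, θ.symm' h⟩)
      · exact EqvGen.refl _
      · exact hJ1 i k hk h
    rintro x y (rfl | rfl | ⟨i, k, hk, rfl⟩) hy h
    · exact hs y hy h
    · exact ht y hy h
    · rcases hy with rfl | rfl | ⟨i', l, hl, rfl⟩
      · exact EqvGen.symm _ _ (hs _ (Or.inr (Or.inr ⟨i, k, hk, rfl⟩)) (θ.symm' h))
      · exact EqvGen.symm _ _ (ht _ (Or.inr (Or.inr ⟨i, k, hk, rfl⟩)) (θ.symm' h))
      · exact hjj i i' k l hk hl h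
  -- reduction of inner vertices
  have hred : ∀ i (p : Fin (len i + 1)) (z : (kid i p).Inner) (y : NV kid),
      θ (emb kid i p (Sum.inr z)) y →
      (node kid a).EC θ (emb kid i p (Sum.inr z)) y ∨
      ∃ j, Jv j ∧ (node kid a).EC θ (emb kid i p (Sum.inr z)) j ∧ θ j y := by
    intro i p z y h
    by_cases hy : ∃ w, y = emb kid i p w
    · obtain ⟨w, rfl⟩ := hy
      left
      exact stepA i p _ _ h
    right
    have hpos : ∃ r : Fin (len i + 1), ∀ (j : Fin (len i + 1)) (w : (kid i j).Inner),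
        y = emb kid i j (Sum.inr w) → j = r := by
      by_cases hex : ∃ (j : Fin (len i + 1)) (w : (kid i j).Inner), y = emb kid i j (Sum.inr w)
      · obtain ⟨r, w, hr⟩ := hex
        refine ⟨r, fun j w' h' => ?_⟩
        rw [hr] at h'
        simp only [emb] at h'
        have h2 := Sum.inr.inj h'
        have h3 := (Sigma.mk.inj_iff.mp h2).2
        have h4 := eq_of_heq h3
        have h5 := (Sum.inr.inj h4)
        exact (congrArg Sigma.fst h5).symm
      · refine ⟨p, fun j w h' => ?_⟩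
        exact absurd ⟨j, w, h'⟩ hex
    obtain ⟨r, hr⟩ := hpos
    obtain ⟨q, hq1, hq2, hq3⟩ := H1 i p r
    obtain ⟨F, c, b, hF, hcb, h2, h3, h4, h5, h6, h7, h8⟩ :=
      fold (a := a) i p q hq1.symm hq3 (hemb i p)
    have h9 : F y = c ∨ F y = b := by
      rcases y with (_ | _) | ⟨i', k | ⟨j, w⟩⟩
      · left; exact h2
      · left; exact h3
      · rw [← jun_inner]
        by_cases hi : i' = i
        · subst hi
          rw [h5 _ (by have := k.2; omega)]
          split_ifs
          · left; rfl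
          · right; rfl
        · left
          exact h6 i' hi _ (by have := k.2; omega)
      · by_cases hi : i' = i
        · subst hi
          apply h8 j (Sum.inr w)
          · rintro rfl
            exact hy ⟨Sum.inr w, rfl⟩
          · rintro rfl
            exact hq2 (hr _ w rfl)
        · left
          exact h7 i' j (Sum.inr w) hi
    have h10 := hθ F hF _ _ h
    rw [h4] at h10
    have hj : F y = jun kid i p ∨ F y = jun kid i (p + 1) := by
      rcases hcb with ⟨rfl, rfl⟩ | ⟨rfl, rfl⟩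
      · exact h9
      · exact h9.symm
    have hz : (node kid a).EC θ (emb kid i p (Sum.inr z)) (F y) := by
      rcases hj with hj | hj
      · rw [hj] at h10 ⊢
        exact stepA i p _ (Sum.inl false) h10
      · rw [hj] at h10 ⊢
        exact stepA i p _ (Sum.inl true) h10
    refine ⟨F y, ?_, hz, θ.trans' (θ.symm' (Bip.EC.le _ _ hz)) h⟩
    rcases hj with hj | hj
    · rw [hj]
      exact Or.inr (Or.inr ⟨i, p, by have := p.2; omega, rfl⟩)
    · rw [hj]
      exact Or.inr (Or.inr ⟨i, p + 1, by have := p.2; omega, rfl⟩)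
  -- classification of vertices
  have hcl : ∀ x : NV kid, Jv x ∨
      ∃ i, ∃ (p : Fin (len i + 1)) (z : (kid i p).Inner), x = emb kid i p (Sum.inr z) := by
    rintro ((_ | _) | ⟨i, k | ⟨j, w⟩⟩)
    · exact Or.inl (Or.inl rfl)
    · exact Or.inl (Or.inr (Or.inl rfl))
    · refine Or.inl (Or.inr (Or.inr ⟨i, k + 1, by have := k.2; omega, (jun_inner kid i k).symm⟩))
    · exact Or.inr ⟨i, j, w, rfl⟩
  have step1 : ∀ x y, Jv y → θ x y → (node kid a).EC θ x y := by
    intro x y hy h
    rcases hcl x with hx | ⟨i, p, z, rfl⟩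
    · exact hJJ x y hx hy h
    · rcases hred i p z y h with h1 | ⟨j, hj, h2, h3⟩
      · exact h1
      · exact EqvGen.trans _ _ _ h2 (hJJ j y hj hy h3)
  intro x y h
  rcases hcl y with hy | ⟨i, p, z, rfl⟩
  · exact step1 x y hy h
  · rcases hred i p z x (θ.symm' h) with h1 | ⟨j, hj, h2, h3⟩
    · exact EqvGen.symm _ _ h1
    · exact EqvGen.trans _ _ _ (step1 x j hj (θ.symm' h3)) (EqvGen.symm _ _ h2)

end Vale.Agent.P183
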