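import Vale.Agent.P183.Gadget

namespace Vale.Agent.P183

open Relation

universe u

variable {L : Type u} [Lattice L] [BoundedOrder L] [Fintype L]

open Classical in
/-- All join irreducibles. -/
noncomputable def Js : Finset L := Finset.univ.filter SupIrred

theorem mem_Js {c : L} : c ∈ (Js : Finset L) ↔ SupIrred c := by
  classical
  simp [Js]

theorem Js_ne [Nontrivial L] : (Js : Finset L).Nonempty := by
  obtain ⟨s, hs, hs'⟩ := exists_supIrred_decomposition (⊤ : L)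
  rcases s.eq_empty_or_nonempty with rfl | ⟨c, hc⟩
  · simp only [Finset.sup_empty] at hs
    exact absurd hs bot_ne_top
  · exact ⟨c, mem_Js.2 (hs' hc)⟩

/-- The carrier graph. -/
noncomputable def Top (ρ : L → ℕ) : Bip L := mk ⊤ {Js} 3 (G ρ)

variable {ρ : L → ℕ} [Nontrivial L]

theorem top_ne : ∀ C ∈ ({Js} : Finset (Finset L)), C.Nonempty := by
  intro C hC
  rw [Finset.mem_singleton] at hC
  subst hC
  exact Js_ne

theorem sem_top {Y : Type} {lv : L → Setoid Y} {u v : Y} :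
    (Top ρ).Sem lv u v ↔ lv ⊤ u v ∧
      Chain (fun j => (G ρ (wd Js j)).Sem lv) 0 (3 * (2 * (Js : Finset L).card)) u v := by
  unfold Top
  rw [sem_mk (by norm_num) top_ne]
  simp

theorem PL_top : (Top ρ).PLProp :=
  PL_mk (le_refl 3) top_ne (fun _ _ c _ => PL_G c) (fun _ _ c _ => symP_G c)

theorem top_ear : ∃ y : ℕ → (Top ρ).Vert, y 0 = Sum.inl false ∧
    y (3 * (2 * (Js : Finset L).card)) = Sum.inl true ∧
    ∀ j, j < 3 * (2 * (Js : Finset L).card) → Occ ρ (Top ρ) (wd Js j) (y j) (y (j + 1)) :=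
  mk_ear (le_refl 3) top_ne (fun _ _ c _ => symP_G c) (Finset.mem_singleton.mpr rfl)
    (Occurrence.refl _)

theorem top_occ {c : L} (hc : SupIrred c) : ∃ x y, Occ ρ (Top ρ) c x y := by
  obtain ⟨y, _, _, hs⟩ := top_ear (ρ := ρ)
  obtain ⟨e, he, rfl⟩ := wd_surj (mem_Js.2 hc)
  exact ⟨_, _, hs e (by omega)⟩

theorem top_edges {ℓ : L} {u v : (Top ρ).Vert} (e : (Top ρ).E ℓ u v) :
    (ℓ = ⊤ ∧ u = Sum.inl false ∧ v = Sum.inl true) ∨ (SupIrred ℓ ∧ Occ ρ (Top ρ) ℓ u v) := by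
  change NE _ _ _ _ _ at e
  cases e with
  | root => exact Or.inl ⟨rfl, rfl, rfl⟩
  | sub i j e =>
    right
    have hC := Cf_mem ({Js} : Finset (Finset L)) i
    have hne := top_ne _ hC
    have hl : SupIrred (wd (Cf ({Js} : Finset (Finset L)) i) j) := by
      have := wd_mem hne j
      rw [Finset.mem_singleton.mp hC] at this ⊢
      exact mem_Js.1 this
    obtain ⟨q, hq1, -, hq3⟩ := mk_H1 (g := G ρ) (le_refl 3) top_ne i j j
    have h := occ_emb (kid := mkKid ({Js} : Finset (Finset L)) 3 (G ρ)) (a := ⊤) i j (symP_G _)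
      ⟨q, hq1, hq3⟩
    exact occ_edges _ hl _ _ _ rfl h ℓ _ _ e

/-- Morphisms of gadgets inherit the label of the root. -/
theorem sem_G_root {a : L} {Y : Type} {lv : L → Setoid Y} {u v : Y} (h : (G ρ a).Sem lv u v) :
    lv a u v := (sem_G.1 h).1

theorem occ_sem {c : L} {T : Bip L} {x y : T.Vert} (h : Occ ρ T c x y) :
    (G ρ c).Sem T.conn x y := by
  obtain ⟨ι, hι, rfl, rfl⟩ := h
  exact ⟨ι, fun ℓ u v e => T.conn_edge le_rfl (hι.1 ℓ u v e), rfl, rfl⟩

theorem conn_le_conn (T : Bip L) (s t : L) (h : s ≤ t) : T.conn s ≤ T.conn t :=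
  fun _ _ hxy => T.conn_mono h hxy

/-- Edges with labels below the supremum of the labels of edges in a closed equivalence lie in the
equivalence. -/
theorem occ_in_theta (hρ : RankCond ρ) {θ : Setoid (Top ρ).Vert} (hθ : (Top ρ).Closed θ)
    {S : Finset L} (hS : ∀ ℓ ∈ S, ∃ u v, (Top ρ).E ℓ u v ∧ θ u v) (c : L) (hc : SupIrred c)
    (hcS : c ≤ S.sup id) (x y : (Top ρ).Vert) (hxy : Occ ρ (Top ρ) c x y) : θ x y := by
  induction' hn : ρ c using Nat.strong_induction_on with n ih generalizing c x y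
  by_cases hex : ∃ ℓ ∈ S, c ≤ ℓ
  · obtain ⟨ℓ, hℓ, hcℓ⟩ := hex
    obtain ⟨u, v, e, huv⟩ := hS ℓ hℓ
    have hsem := occ_sem hxy
    rcases top_edges e with ⟨-, rfl, rfl⟩ | ⟨hℓ', ι, hι, rfl, rfl⟩
    · have h1 : (Top ρ).Sem (Top ρ).conn x y := by
        refine sem_top.2 ⟨conn_le_conn _ _ _ le_top (sem_G_root hsem), ?_⟩
        exact chain_letter (mem_Js.2 hc) (by norm_num) hsem
      obtain ⟨F, hF, rfl, rfl⟩ := h1
      exact hθ F hF _ _ huv
    · have h1 := inc hρ (conn_le_conn (Top ρ)) ℓ c hc hcℓ _ _ hsem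
      obtain ⟨f, hf, rfl, rfl⟩ := h1
      obtain ⟨F, hF, hF'⟩ := hι.2 _ _ f hf
      have := hθ F hF _ _ huv
      rwa [hF', hF'] at this
  · have hex' : ∀ b ∈ S, ¬ c ≤ b := fun b hb hab => hex ⟨b, hb, hab⟩
    have hne : S.Nonempty := by
      rcases S.eq_empty_or_nonempty with rfl | h
      · simp only [Finset.sup_empty, le_bot_iff] at hcS
        exact absurd (hcS ▸ isMin_bot) hc.1
      · exact h
    have hsup : c ≤ S.sup' hne id := by
      rw [Finset.sup'_eq_sup]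
      exact hcS
    obtain ⟨C, hC, h3, h4⟩ := hρ c hc S hne hsup hex'
    have hCmem : C ∈ covs ρ c := (mem_covs ρ).2 ⟨hC, fun c hc => ⟨(h3 c hc).1, (h3 c hc).2.1⟩, h4⟩
    obtain ⟨y', rfl, rfl, hs⟩ := occ_chain hxy hCmem
    have key : ∀ m, m ≤ Nf c * (2 * C.card) → θ (y' 0) (y' m) := by
      intro m
      induction m with
      | zero => intro _; exact θ.refl' _
      | succ m ih2 =>
        intro hm
        refine θ.trans' (ih2 (by omega)) ?_
        obtain ⟨h5, h6, b, hb, hcb⟩ := h3 _ (wd_mem hC m)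
        exact ih _ (by rw [← hn]; exact h6) _ h5 (hcb.trans (Finset.le_sup (f := id) hb)) _ _
          (hs m (by omega)) rfl
    exact key _ le_rfl

theorem edge_in_theta (hρ : RankCond ρ) {θ : Setoid (Top ρ).Vert} (hθ : (Top ρ).Closed θ)
    {S : Finset L} (hS : ∀ ℓ ∈ S, ∃ u v, (Top ρ).E ℓ u v ∧ θ u v) {ℓ : L} {u v : (Top ρ).Vert}
    (e : (Top ρ).E ℓ u v) (hℓ : ℓ ≤ S.sup id) : θ u v := by
  rcases top_edges e with ⟨rfl, rfl, rfl⟩ | ⟨hc, h⟩
  · obtain ⟨y, h0, h1, hs⟩ := top_ear (ρ := ρ)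
    rw [← h0, ← h1]
    have key : ∀ m, m ≤ 3 * (2 * (Js : Finset L).card) → θ (y 0) (y m) := by
      intro m
      induction m with
      | zero => intro _; exact θ.refl' _
      | succ m ih2 =>
        intro hm
        refine θ.trans' (ih2 (by omega)) ?_
        exact occ_in_theta hρ hθ hS _ (mem_Js.1 (wd_mem Js_ne m)) (le_top.trans hℓ) _ _
          (hs m (by omega))
    exact key _ le_rfl
  · exact occ_in_theta hρ hθ hS ℓ hc hℓ _ _ h

/-- Closed equivalences are the connectivity relations. -/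
theorem closed_eq_conn (hρ : RankCond ρ) {θ : Setoid (Top ρ).Vert} (hθ : (Top ρ).Closed θ) :
    ∃ τ : L, θ = (Top ρ).conn τ := by
  classical
  let S : Finset L := Finset.univ.filter (fun ℓ => ∃ u v, (Top ρ).E ℓ u v ∧ θ u v)
  have hS : ∀ ℓ ∈ S, ∃ u v, (Top ρ).E ℓ u v ∧ θ u v := by
    intro ℓ hℓ
    exact (Finset.mem_filter.mp hℓ).2
  refine ⟨S.sup id, le_antisymm ?_ ?_⟩
  · intro x y hxy
    have h := PL_top θ hθ x y hxy
    change EqvGen _ x y at h
    change EqvGen _ x y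
    refine EqvGen.mono ?_ _ _ h
    rintro u v ⟨⟨ℓ, e⟩, huv⟩
    refine ⟨ℓ, Finset.le_sup (f := id) ?_, e⟩
    exact Finset.mem_filter.mpr ⟨Finset.mem_univ _, u, v, e, huv⟩
  · intro x y hxy
    change EqvGen _ x y at hxy
    induction hxy with
    | rel _ _ h =>
      obtain ⟨ℓ, hℓ, e⟩ := h
      exact edge_in_theta hρ hθ hS e hℓ
    | refl x => exact θ.refl' _
    | symm _ _ _ ih => exact θ.symm' ih
    | trans _ _ _ _ _ ih1 ih2 => exact θ.trans' ih1 ih2

/-- Morphisms preserve all the connectivity relations. -/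
theorem conn_closed (T : Bip L) (t : L) : T.Closed (T.conn t) := by
  intro f hf x y hxy
  change EqvGen _ x y at hxy
  induction hxy with
  | rel _ _ h =>
    obtain ⟨ℓ, hℓ, e⟩ := h
    exact T.conn_mono hℓ (hf _ _ _ e)
  | refl x => exact (T.conn t).refl' _
  | symm _ _ _ ih => exact (T.conn t).symm' ih
  | trans _ _ _ _ _ ih1 ih2 => exact (T.conn t).trans' ih1 ih2

/-- The test levels on a two element set. -/
noncomputable def lvt (t b : L) : Setoid Bool := by
  classical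
  exact if b ≤ t then ⊥ else ⊤

theorem lvt_le {t b : L} (h : b ≤ t) {x y : Bool} (hxy : lvt t b x y) : x = y := by
  unfold lvt at hxy
  rw [if_pos h] at hxy
  exact hxy

theorem lvt_top {t b : L} (h : ¬ b ≤ t) (x y : Bool) : lvt t b x y := by
  unfold lvt
  rw [if_neg h]
  trivial

theorem sep_G {t : L} (a : L) (h : ¬ a ≤ t) : (G ρ a).Sem (lvt t) false true := by
  induction' hn : ρ a using Nat.strong_induction_on with n ih generalizing a
  refine sem_G.2 ⟨lvt_top h _ _, fun C hC => ?_⟩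
  obtain ⟨hne, _, hsup⟩ := (mem_covs ρ).1 hC
  have hex : ∃ c ∈ C, ¬ c ≤ t := by
    by_contra hc
    have hc' : ∀ c ∈ C, c ≤ t := fun c hc1 => by
      by_contra hc2
      exact hc ⟨c, hc1, hc2⟩
    exact h (hsup.trans (Finset.sup'_le _ _ hc'))
  obtain ⟨c, hc, hct⟩ := hex
  exact chain_letter hc (Nf_pos a)
    (ih (ρ c) (by rw [← hn]; exact (covs_letter ρ hC hc).2) c hct rfl)

theorem sep_conn {t c : L} (h : ¬ c ≤ t) {T : Bip L} {x y : T.Vert} (hxy : Occ ρ T c x y) :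
    ¬ T.conn t x y := by
  obtain ⟨ι, hι, rfl, rfl⟩ := hxy
  obtain ⟨f, hf, h0, h1⟩ := sep_G (ρ := ρ) c h
  obtain ⟨F, hF, hF'⟩ := hι.2 _ _ f hf
  intro hc
  have key : ∀ u v, T.conn t u v → F u = F v := by
    intro u v huv
    change EqvGen _ u v at huv
    induction huv with
    | rel _ _ h =>
      obtain ⟨ℓ, hℓ, e⟩ := h
      exact lvt_le hℓ (hF _ _ _ e)
    | refl x => rfl
    | symm _ _ _ ih => exact ih.symm
    | trans _ _ _ _ _ ih1 ih2 => exact ih1.trans ih2
  have := key _ _ hc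
  rw [hF', hF', h0, h1] at this
  exact Bool.false_ne_true this

theorem conn_le_iff {s t : L} : (Top ρ).conn s ≤ (Top ρ).conn t ↔ s ≤ t := by
  refine ⟨fun h => ?_, conn_le_conn _ _ _⟩
  obtain ⟨C, hC, hC'⟩ := exists_supIrred_decomposition s
  rw [← hC]
  refine Finset.sup_le (fun c hc => ?_)
  have hcs : c ≤ s := by
    rw [← hC]
    exact Finset.le_sup (f := id) hc
  by_contra hct
  obtain ⟨x, y, hxy⟩ := top_occ (ρ := ρ) (hC' hc)
  refine sep_conn hct hxy (h ?_)
  obtain ⟨ι, hι, rfl, rfl⟩ := hxy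
  -- the root edge of the occurrence
  have key : ∀ K, K = G ρ c → ∀ ι : K.Vert → (Top ρ).Vert, Occurrence (Top ρ) K ι →
      (Top ρ).conn s (ι (Sum.inl false)) (ι (Sum.inl true)) := by
    intro K hK
    rw [G_eq ρ c] at hK
    subst hK
    intro ι hι
    exact (Top ρ).conn_edge hcs (hι.1 c _ _ NE.root)
  exact key _ rfl ι hι

end Vale.Agent.P183
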