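import Vale.Agent.P183.PL

namespace Vale.Agent.P183

open Relation

universe u

section chain

variable {Y : Type} {S : ℕ → Y → Y → Prop}

/-- Walks along a word. -/
def Chain (S : ℕ → Y → Y → Prop) (a b : ℕ) (u v : Y) : Prop :=
  ∃ y : ℕ → Y, y a = u ∧ y b = v ∧ ∀ j, a ≤ j → j < b → S j (y j) (y (j + 1))

theorem Chain.trans {a b c : ℕ} {u v w : Y} (hab : a ≤ b) (hbc : b ≤ c)
    (h1 : Chain S a b u v) (h2 : Chain S b c v w) : Chain S a c u w := by
  obtain ⟨y1, h1a, h1b, h1s⟩ := h1
  obtain ⟨y2, h2a, h2b, h2s⟩ := h2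
  refine ⟨fun j => if j ≤ b then y1 j else y2 j, ?_, ?_, ?_⟩
  · simp only [if_pos hab, h1a]
  · by_cases h : c ≤ b
    · have : c = b := le_antisymm h hbc
      subst this
      simp only [le_refl, if_true, h1b]
      exact h2a.symm.trans h2b
    · simp only [if_neg h, h2b]
  · intro j hj1 hj2
    by_cases h : j + 1 ≤ b
    · simp only [if_pos h, if_pos (show j ≤ b by omega)]
      exact h1s j hj1 (by omega)
    · simp only [if_neg h]
      by_cases h' : j = b
      · subst h'
        simp only [le_refl, if_true, h1b]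
        have := h2s j le_rfl hj2
        rwa [h2a] at this
      · simp only [if_neg (show ¬ j ≤ b by omega)]
        exact h2s j (by omega) hj2

theorem Chain.const (hS : ∀ j x, S j x x) (a b : ℕ) (u : Y) : Chain S a b u u :=
  ⟨fun _ => u, rfl, rfl, fun j _ _ => hS j u⟩

theorem Chain.single {a : ℕ} {u v : Y} (h : S a u v) : Chain S a (a + 1) u v := by
  classical
  refine ⟨fun j => if j ≤ a then u else v, by simp, by simp, fun j h1 h2 => ?_⟩
  have : j = a := by omega
  subst this
  simpa using h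

theorem Chain.shift {Q : ℕ} (hper : ∀ j, S (j + Q) = S j) {a b : ℕ} {u v : Y}
    (h : Chain S a b u v) : Chain S (a + Q) (b + Q) u v := by
  obtain ⟨y, h1, h2, h3⟩ := h
  refine ⟨fun j => y (j - Q), by simpa using h1, by simpa using h2, fun j hj1 hj2 => ?_⟩
  obtain ⟨j', rfl⟩ : ∃ j', j = j' + Q := ⟨j - Q, by omega⟩
  rw [hper]
  have := h3 j' (by omega) (by omega)
  simpa [show j' + Q + 1 - Q = j' + 1 by omega] using this

theorem Chain.shift_mul {Q : ℕ} (hper : ∀ j, S (j + Q) = S j) (t : ℕ) {a b : ℕ} {u v : Y}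
    (h : Chain S a b u v) : Chain S (a + t * Q) (b + t * Q) u v := by
  induction t with
  | zero => simpa using h
  | succ t ih =>
    have := Chain.shift hper ih
    have e : ∀ x, x + (t + 1) * Q = x + t * Q + Q := by intro x; ring
    rw [e, e]
    exact this

/-- Crossing one letter in a period. -/
theorem Chain.flip (hS : ∀ j x, S j x x) {Q e : ℕ} (he : e < Q) {u v : Y} (h : S e u v) :
    Chain S 0 Q u v :=
  (Chain.const hS 0 e u).trans (Nat.zero_le e) (by omega)
    ((Chain.single h).trans (by omega) he (Chain.const hS _ _ v))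

/-- Traversal of a word by walks whose steps are each found in a period. -/
theorem Chain.travel (hS : ∀ j x, S j x x) {Q : ℕ} (hper : ∀ j, S (j + Q) = S j) (x : ℕ → Y)
    {M N : ℕ} (hMN : M ≤ N) (h : ∀ t, t < M → ∃ e, e < Q ∧ S e (x t) (x (t + 1))) :
    Chain S 0 (N * Q) (x 0) (x M) := by
  have key : ∀ m, m ≤ M → Chain S 0 (m * Q) (x 0) (x m) := by
    intro m
    induction m with
    | zero => intro _; simpa using Chain.const hS 0 0 (x 0)
    | succ m ih =>
      intro hm
      obtain ⟨e, he, hs⟩ := h m (by omega)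
      have h1 := Chain.shift_mul hper m (Chain.flip hS he hs)
      have e1 : 0 + m * Q = m * Q := by omega
      have e2 : Q + m * Q = (m + 1) * Q := by ring
      rw [e1, e2] at h1
      exact (ih (by omega)).trans (Nat.zero_le _) (Nat.mul_le_mul_right _ (by omega)) h1
  exact (key M le_rfl).trans (Nat.zero_le _) (Nat.mul_le_mul_right _ hMN)
    (Chain.const hS _ _ _)

/-- Property of a chain in a transitive relation. -/
theorem Chain.of_trans {R : Y → Y → Prop} (hR : ∀ x, R x x) (hT : ∀ x y z, R x y → R y z → R x z)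
    (hSR : ∀ j, 0 ≤ j → ∀ x y, S j x y → R x y) {b : ℕ} {u v : Y} (h : Chain S 0 b u v) : R u v := by
  obtain ⟨y, rfl, rfl, h⟩ := h
  have key : ∀ m, m ≤ b → R (y 0) (y m) := by
    intro m
    induction m with
    | zero => intro _; exact hR _
    | succ m ih =>
      intro hm
      exact hT _ _ _ (ih (by omega)) (hSR m (Nat.zero_le _) _ _ (h m (Nat.zero_le _) (by omega)))
  exact key b le_rfl

end chain

section period

variable {α : Type*} {w : ℕ → α} {Q m : ℕ}

theorem period_mul (hper : ∀ j, w (j + Q) = w j) (t j : ℕ) : w (j + t * Q) = w j := by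
  induction t with
  | zero => simp
  | succ t ih =>
    rw [show j + (t + 1) * Q = j + t * Q + Q by ring, hper, ih]

theorem period_H1 (hQ : 0 < Q) (hm : 3 * Q ≤ m) (hper : ∀ j, w (j + Q) = w j) (p r : ℕ)
    (hp : p < m) : ∃ q, q < m ∧ q ≠ p ∧ q ≠ r ∧ w q = w p := by
  have h1 : p + Q < m → w (p + Q) = w p := fun _ => hper p
  have h2 : p + 2 * Q < m → w (p + 2 * Q) = w p := by
    intro _
    have := period_mul hper 2 p
    exact this
  have h3 : Q ≤ p → w (p - Q) = w p := by
    intro h
    have := hper (p - Q)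
    rw [show p - Q + Q = p by omega] at this
    exact this.symm
  have h4 : 2 * Q ≤ p → w (p - 2 * Q) = w p := by
    intro h
    have := period_mul hper 2 (p - 2 * Q)
    rw [show p - 2 * Q + 2 * Q = p by omega] at this
    exact this.symm
  by_cases c1 : p + 2 * Q < m
  · by_cases c2 : p + Q = r
    · exact ⟨p + 2 * Q, c1, by omega, by omega, h2 c1⟩
    · exact ⟨p + Q, by omega, by omega, c2, h1 (by omega)⟩
  · by_cases c3 : 2 * Q ≤ p
    · by_cases c4 : p - Q = r
      · exact ⟨p - 2 * Q, by omega, by omega, by omega, h4 c3⟩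
      · exact ⟨p - Q, by omega, by omega, c4, h3 (by omega)⟩
    · by_cases c5 : p + Q = r
      · exact ⟨p - Q, by omega, by omega, by omega, h3 (by omega)⟩
      · exact ⟨p + Q, by omega, by omega, c5, h1 (by omega)⟩

theorem period_mem_window (hQ : 0 < Q) (hper : ∀ j, w (j + Q) = w j) (k p : ℕ) :
    ∃ q, k ≤ q ∧ q < k + Q ∧ w q = w p := by
  -- first go above `k`
  have h1 : ∃ p', k ≤ p' ∧ w p' = w p := ⟨p + k * Q, by
    have : k * 1 ≤ k * Q := Nat.mul_le_mul_left _ hQ
    omega, period_mul hper k p⟩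
  obtain ⟨p', hp1, hp2⟩ := h1
  rw [← hp2]
  clear hp2
  induction p' using Nat.strong_induction_on with
  | _ p' ih =>
    by_cases h : p' < k + Q
    · exact ⟨p', hp1, h, rfl⟩
    · obtain ⟨q, h2, h3, h4⟩ := ih (p' - Q) (by omega) (by omega)
      refine ⟨q, h2, h3, h4.trans ?_⟩
      have := hper (p' - Q)
      rw [show p' - Q + Q = p' by omega] at this
      exact this.symm

theorem period_H3 (hQ : 0 < Q) (hm : 2 * Q ≤ m) (hper : ∀ j, w (j + Q) = w j) (k l : ℕ)
    (hkl : k < l) (hl : l ≤ m) :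
    (∀ p, p < m → k ≤ p → p < l → ∃ q, q < m ∧ ¬ (k ≤ q ∧ q < l) ∧ w q = w p) ∨
    (∀ p, p < m → ¬ (k ≤ p ∧ p < l) → ∃ q, q < m ∧ (k ≤ q ∧ q < l) ∧ w q = w p) := by
  by_cases h : l - k < Q
  · left
    intro p hp h1 h2
    by_cases c : p + Q < m
    · exact ⟨p + Q, c, by omega, hper p⟩
    · refine ⟨p - Q, by omega, by omega, ?_⟩
      have := hper (p - Q)
      rw [show p - Q + Q = p by omega] at this
      exact this.symm
  · right
    intro p hp h1
    obtain ⟨q, h2, h3, h4⟩ := period_mem_window hQ hper k p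
    exact ⟨q, by omega, ⟨h2, by omega⟩, h4⟩

end period

section word

variable {L : Type u} [Bot L]

/-- The index within a palindromic period. -/
def wIdx (P j : ℕ) : ℕ :=
  if j % (2 * P) < P then j % (2 * P) else 2 * P - 1 - j % (2 * P)

/-- The palindromic word with period `2 * C.card` running over the list of `C` and back. -/
noncomputable def wd (C : Finset L) (j : ℕ) : L := C.toList.getD (wIdx C.card j) ⊥

theorem wIdx_lt {P : ℕ} (hP : 0 < P) (j : ℕ) : wIdx P j < P := by
  unfold wIdx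
  have : j % (2 * P) < 2 * P := Nat.mod_lt _ (by omega)
  split_ifs <;> omega

theorem wd_eq {C : Finset L} {r : ℕ} (hr' : r < C.toList.length) :
    C.toList.getD r ⊥ = C.toList[r] :=
  List.getD_eq_getElem _ _ hr'

theorem wd_mem {C : Finset L} (hC : C.Nonempty) (j : ℕ) : wd C j ∈ C := by
  have h1 : wIdx C.card j < C.card := wIdx_lt hC.card_pos j
  have h2 : wIdx C.card j < C.toList.length := by simpa using h1
  unfold wd
  rw [wd_eq h2]
  exact Finset.mem_toList.mp (List.getElem_mem h2)

theorem wd_surj {C : Finset L} {c : L} (hc : c ∈ C) : ∃ e, e < 2 * C.card ∧ wd C e = c := by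
  obtain ⟨r, hr, rfl⟩ := List.mem_iff_getElem.mp (Finset.mem_toList.mpr hc)
  have hr2 : r < C.card := by simpa using hr
  refine ⟨r, by omega, ?_⟩
  have h1 : r % (2 * C.card) = r := Nat.mod_eq_of_lt (by omega)
  have h2 : wIdx C.card r = r := by
    unfold wIdx
    rw [h1, if_pos hr2]
  unfold wd
  rw [h2, wd_eq hr]

theorem wd_period (C : Finset L) (j : ℕ) : wd C (j + 2 * C.card) = wd C j := by
  unfold wd wIdx
  rw [Nat.add_mod_right]

theorem wIdx_pal {P N j : ℕ} (hP : 0 < P) (hj : j < N * (2 * P)) :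
    wIdx P (N * (2 * P) - 1 - j) = wIdx P j := by
  set Q := 2 * P with hQ
  have hQ0 : 0 < Q := by omega
  obtain ⟨r, hr⟩ : ∃ r, r = j % Q := ⟨_, rfl⟩
  obtain ⟨q, hq⟩ : ∃ q, q = j / Q := ⟨_, rfl⟩
  have hjd : Q * q + r = j := by rw [hr, hq]; exact Nat.div_add_mod j Q
  have hrlt : r < Q := by rw [hr]; exact Nat.mod_lt _ hQ0
  have hqN : q < N := by
    by_contra hc
    have : N * Q ≤ Q * q := by
      rw [Nat.mul_comm]
      exact Nat.mul_le_mul_left _ (by omega)
    omega
  obtain ⟨d, rfl⟩ : ∃ d, N = q + 1 + d := ⟨N - q - 1, by omega⟩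
  have e1 : (q + 1 + d) * Q = Q * q + Q + Q * d := by ring
  have e2 : (q + 1 + d) * Q - 1 - j = Q * d + (Q - 1 - r) := by omega
  have e3 : ((q + 1 + d) * Q - 1 - j) % Q = Q - 1 - r := by
    rw [e2, Nat.mul_add_mod, Nat.mod_eq_of_lt (by omega)]
  unfold wIdx
  rw [← hQ, e3, ← hr]
  by_cases h : r < P
  · rw [if_neg (by omega), if_pos h]
    omega
  · rw [if_pos (by omega), if_neg h]

theorem wd_pal {C : Finset L} (hC : C.Nonempty) {N j : ℕ} (hj : j < N * (2 * C.card)) :
    wd C (N * (2 * C.card) - 1 - j) = wd C j := by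
  unfold wd
  rw [wIdx_pal hC.card_pos hj]

end word

end Vale.Agent.P183
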